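import Vale.Agent.P034F.Recursion

/-! From a fractional cover to an integral cover. -/

namespace P034F

open Finset

variable {α : Type*} [Fintype α] [DecidableEq α]

/-- The part of uniformity `t`, normalised. -/
noncomputable def slice (g : Finset α → ℝ) (t : ℕ) : Finset α → ℝ :=
  fun S => if S.card = t then 2 ^ (t + 1) * g S else 0

/-- The sets of large degree. -/
noncomputable def heavy (g : Finset α → ℝ) (t : ℕ) (p : ℝ) : Finset (Finset α) :=
  Finset.univ.filter (fun B => B.Nonempty ∧ (1 / 2 : ℝ) ^ (50 * t) < p ^ (t - B.card) * dg g B)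

lemma heavy_cost (g : Finset α → ℝ) (hg : ∀ S, 0 ≤ g S) (t : ℕ) (hgt : ∀ S, g S ≠ 0 → S.card = t)
    {p q : ℝ} (hq : 0 < q) (hqp : q ≤ p) (hw : p ^ t * ∑ S, g S ≤ (1 / 2 : ℝ) ^ (55 * t)) :
    cost q (heavy g t p) ≤ (1 / 2 : ℝ) ^ (4 * t) := by
  have hp : 0 < p := by linarith
  have h1 : ∀ B ∈ heavy g t p, q ^ B.card
      ≤ 2 ^ (50 * t) * (q ^ B.card * (p ^ (t - B.card) * dg g B)) := by
    intro B hB
    have h2 := (Finset.mem_filter.1 hB).2.2
    have h3 : (2 : ℝ) ^ (50 * t) * (1 / 2 : ℝ) ^ (50 * t) = 1 := by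
      rw [← mul_pow]
      norm_num
    calc q ^ B.card = q ^ B.card * (2 ^ (50 * t) * (1 / 2 : ℝ) ^ (50 * t)) := by rw [h3, mul_one]
      _ ≤ q ^ B.card * (2 ^ (50 * t) * (p ^ (t - B.card) * dg g B)) := by
          apply mul_le_mul_of_nonneg_left _ (pow_nonneg hq.le _)
          exact mul_le_mul_of_nonneg_left h2.le (by positivity)
      _ = 2 ^ (50 * t) * (q ^ B.card * (p ^ (t - B.card) * dg g B)) := by ring
  have h4 : cost q (heavy g t p)
      ≤ 2 ^ (50 * t) * ∑ B, q ^ B.card * (p ^ (t - B.card) * dg g B) := by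
    unfold cost
    refine (Finset.sum_le_sum h1).trans ?_
    rw [← Finset.mul_sum]
    apply mul_le_mul_of_nonneg_left _ (by positivity)
    apply Finset.sum_le_sum_of_subset_of_nonneg (Finset.subset_univ _)
    intro B _ _
    have : 0 ≤ dg g B := Finset.sum_nonneg fun S _ => hg S
    positivity
  have h5 : ∑ B, q ^ B.card * (p ^ (t - B.card) * dg g B) = ∑ S, g S * (q + p) ^ t := by
    have h6 : ∀ B : Finset α, q ^ B.card * (p ^ (t - B.card) * dg g B)
        = ∑ S, if B ⊆ S then g S * (q ^ B.card * p ^ (t - B.card)) else 0 := by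
      intro B
      unfold dg
      rw [Finset.mul_sum, Finset.mul_sum, Finset.sum_filter]
      apply Finset.sum_congr rfl
      intro S _
      split_ifs <;> ring
    simp only [h6]
    rw [Finset.sum_comm]
    apply Finset.sum_congr rfl
    intro S _
    by_cases hS : g S = 0
    · simp [hS]
    · have hSt := hgt S hS
      have h7 : ∑ B : Finset α, (if B ⊆ S then g S * (q ^ B.card * p ^ (t - B.card)) else 0)
          = ∑ B ∈ S.powerset, g S * (q ^ B.card * p ^ (S.card - B.card)) := by
        have h8 : S.powerset = Finset.univ.filter (fun B => B ⊆ S) := by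
          ext B
          simp
        rw [h8, Finset.sum_filter, hSt]
      rw [h7, ← Finset.mul_sum, Finset.sum_pow_mul_eq_add_pow, hSt]
  rw [h5] at h4
  refine h4.trans ?_
  have h9 : (q + p) ^ t ≤ 2 ^ t * p ^ t := by
    rw [← mul_pow]
    exact pow_le_pow_left₀ (by linarith) (by linarith) _
  have hsum : 0 ≤ ∑ S, g S := Finset.sum_nonneg fun S _ => hg S
  calc 2 ^ (50 * t) * ∑ S, g S * (q + p) ^ t
      = 2 ^ (50 * t) * ((∑ S, g S) * (q + p) ^ t) := by rw [Finset.sum_mul]
    _ ≤ 2 ^ (50 * t) * ((∑ S, g S) * (2 ^ t * p ^ t)) := by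
        apply mul_le_mul_of_nonneg_left _ (by positivity)
        exact mul_le_mul_of_nonneg_left h9 hsum
    _ = 2 ^ (50 * t) * 2 ^ t * (p ^ t * ∑ S, g S) := by ring
    _ ≤ 2 ^ (50 * t) * 2 ^ t * (1 / 2 : ℝ) ^ (55 * t) :=
        mul_le_mul_of_nonneg_left hw (by positivity)
    _ = (1 / 2 : ℝ) ^ (4 * t) := by
        rw [← pow_add, show 55 * t = (50 * t + t) + 4 * t by ring, pow_add (1 / 2 : ℝ), ← mul_assoc,
          ← mul_pow]
        norm_num

/-- One uniformity. -/
lemma one_slice (g : Finset α → ℝ) (hg : ∀ S, 0 ≤ g S) (t : ℕ) (ht : 1 ≤ t)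
    (hgt : ∀ S, g S ≠ 0 → S.card = t)
    {p q : ℝ} (hq : 0 < q) (hqp : 512 * q ≤ p) (hp1 : p ≤ 1)
    (hw : p ^ t * ∑ S, g S ≤ (1 / 2 : ℝ) ^ (55 * t)) :
    ∃ G : Finset (Finset α), cost q G ≤ (1 / 2 : ℝ) ^ (t + 1) ∧
      ∀ H : Finset α, 1 ≤ ∑ S ∈ H.powerset, g S → ∃ T ∈ G, T ⊆ H := by
  have hp : 0 < p := by linarith
  set Z := heavy g t p with hZ
  set g' : Finset α → ℝ := fun S => if ∃ B ∈ Z, B ⊆ S then 0 else g S with hg'
  have hg'le : ∀ S, g' S ≤ g S := by
    intro S
    simp only [hg']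
    split_ifs
    · exact hg S
    · exact le_rfl
  have hg'0 : ∀ S, 0 ≤ g' S := by
    intro S
    simp only [hg']
    split_ifs
    · exact le_rfl
    · exact hg S
  have hw' : p ^ t * ∑ S, g' S ≤ (1 / 2 : ℝ) ^ (55 * t) :=
    (mul_le_mul_of_nonneg_left (Finset.sum_le_sum fun S _ => hg'le S) (pow_nonneg hp.le _)).trans hw
  have hyp : Hyp p t (10 * t) g' := by
    refine ⟨hg'0, ?_, ?_, ?_⟩
    · intro S hS
      apply hgt
      intro h
      apply hS
      simp only [hg', h, ite_self]
    · exact hw'.trans (pow_le_one₀ (by norm_num) (by norm_num))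
    · intro B hB
      by_cases hBZ : B ∈ Z
      · have h1 : dg g' B = 0 := by
          unfold dg
          apply Finset.sum_eq_zero
          intro S hS
          simp only [hg']
          rw [if_pos ⟨B, hBZ, (Finset.mem_filter.1 hS).2⟩]
        rw [h1, mul_zero]
        positivity
      · have h1 : p ^ (t - B.card) * dg g B ≤ (1 / 2 : ℝ) ^ (50 * t) := by
          by_contra h
          push Not at h
          apply hBZ
          rw [hZ]
          unfold heavy
          rw [Finset.mem_filter]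
          exact ⟨Finset.mem_univ _, hB, h⟩
        have h2 : dg g' B ≤ dg g B := Finset.sum_le_sum fun S _ => hg'le S
        rw [show 5 * (10 * t) = 50 * t by ring]
        exact (mul_le_mul_of_nonneg_left h2 (pow_nonneg hp.le _)).trans h1
  obtain ⟨G, hG, hGc⟩ := main_rec' hq hqp hp1 t (10 * t) (by omega) (by omega) g' hyp
  refine ⟨Z ∪ G, ?_, ?_⟩
  · refine (cost_union_le_add hq.le _ _).trans ?_
    have h1 := heavy_cost g hg t hgt hq (by linarith : q ≤ p) hw
    have h2 : (1 / 2 : ℝ) ^ (4 * t) ≤ (1 / 2 : ℝ) ^ (t + 2) := half_anti (by omega)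
    have h3 : (1 / 2 : ℝ) ^ (10 * (10 * t)) ≤ (1 / 2 : ℝ) ^ (t + 2) := half_anti (by omega)
    have h4 : (1 / 2 : ℝ) ^ (t + 2) + (1 / 2 : ℝ) ^ (t + 2) = (1 / 2 : ℝ) ^ (t + 1) := by
      rw [pow_succ (1 / 2 : ℝ) (t + 1)]
      ring
    linarith
  · intro H hH
    by_cases hZH : ∃ B ∈ Z, B ⊆ H
    · obtain ⟨B, hB, hBH⟩ := hZH
      exact ⟨B, Finset.mem_union_left _ hB, hBH⟩
    · rcases hGc H with ⟨T, hT, hTH⟩ | h
      · exact ⟨T, Finset.mem_union_right _ hT, hTH⟩
      · exfalso
        have h1 : ∑ S ∈ H.powerset, g S = ∑ S ∈ H.powerset, g' S := by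
          apply Finset.sum_congr rfl
          intro S hS
          simp only [hg']
          rw [if_neg]
          rintro ⟨B, hB, hBS⟩
          exact hZH ⟨B, hB, hBS.trans (Finset.mem_powerset.1 hS)⟩
        rw [h1] at hH
        have h2 : (1 / 2 : ℝ) ^ (55 * t) ≤ (1 / 2 : ℝ) ^ (2 * t + 2) := half_anti (by omega)
        have h3 : (1 / 2 : ℝ) ^ (10 * t) ≤ (1 / 2 : ℝ) ^ (2 * t + 2) := half_anti (by omega)
        have h4 : (4 : ℝ) ^ t * (1 / 2 : ℝ) ^ (2 * t + 2) = 1 / 4 := by
          rw [pow_add, pow_mul, ← mul_assoc, ← mul_pow]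
          norm_num
        have h5 : (4 : ℝ) ^ t * (p ^ t * ∑ S, g' S + (1 / 2 : ℝ) ^ (10 * t))
            ≤ 4 ^ t * ((1 / 2 : ℝ) ^ (2 * t + 2) + (1 / 2 : ℝ) ^ (2 * t + 2)) := by
          apply mul_le_mul_of_nonneg_left _ (by positivity)
          linarith
        have h6 : (4 : ℝ) ^ t * ((1 / 2 : ℝ) ^ (2 * t + 2) + (1 / 2 : ℝ) ^ (2 * t + 2)) = 1 / 2 := by
          rw [mul_add, h4]
          norm_num
        linarith

/-- A fractional cover at `p` gives an integral cover at `p / 2 ^ 65`. -/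
theorem small_of_fracSmall {F : Set (Finset α)} {p : ℝ} (hp : 0 < p) (hp1 : p ≤ 1)
    (h : IsFracSmall F p) : IsSmall F (p / 2 ^ 65) := by
  obtain ⟨g, hg, hcov, hcost⟩ := h
  set p0 : ℝ := p / 2 ^ 56 with hp0
  set q : ℝ := p / 2 ^ 65 with hq
  have hp0pos : 0 < p0 := by positivity
  have hqpos : 0 < q := by positivity
  have hqp : 512 * q ≤ p0 := by
    rw [hq, hp0]
    have : (512 : ℝ) * (p / 2 ^ 65) = p / 2 ^ 56 := by ring
    rw [this]
  have hp01 : p0 ≤ 1 := by
    rw [hp0, div_le_one (by positivity)]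
    exact hp1.trans (by norm_num)
  have hge : g ∅ ≤ 1 / 2 := by
    have h1 : g ∅ * p ^ (∅ : Finset α).card ≤ ∑ S : Finset α, g S * p ^ S.card :=
      Finset.single_le_sum (f := fun S : Finset α => g S * p ^ S.card)
        (fun S _ => mul_nonneg (hg S).1 (pow_nonneg hp.le _)) (Finset.mem_univ ∅)
    rw [Finset.card_empty, pow_zero, mul_one] at h1
    exact h1.trans hcost
  set N := Fintype.card α with hN
  have hsl : ∀ t ∈ Finset.Icc 1 N, ∃ G : Finset (Finset α), cost q G ≤ (1 / 2 : ℝ) ^ (t + 1) ∧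
      ∀ H : Finset α, 1 ≤ ∑ S ∈ H.powerset, slice g t S → ∃ T ∈ G, T ⊆ H := by
    intro t ht
    rw [Finset.mem_Icc] at ht
    apply one_slice (slice g t) _ t ht.1 _ hqpos hqp hp01
    · -- total weight
      have h1 : p ^ t * ∑ S, slice g t S ≤ 2 ^ t := by
        have h2 : ∑ S ∈ Finset.univ.filter (fun S : Finset α => S.card = t), g S * p ^ S.card
            ≤ 1 / 2 := by
          refine le_trans ?_ hcost
          exact Finset.sum_le_sum_of_subset_of_nonneg (Finset.subset_univ _)
            (fun S _ _ => mul_nonneg (hg S).1 (pow_nonneg hp.le _))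
        have h3 : p ^ t * ∑ S, slice g t S = 2 ^ (t + 1) *
            ∑ S ∈ Finset.univ.filter (fun S : Finset α => S.card = t), g S * p ^ S.card := by
          unfold slice
          rw [← Finset.sum_filter, Finset.mul_sum, Finset.mul_sum]
          apply Finset.sum_congr rfl
          intro S hS
          rw [(Finset.mem_filter.1 hS).2]
          ring
        rw [h3]
        calc (2 : ℝ) ^ (t + 1) * _ ≤ 2 ^ (t + 1) * (1 / 2) :=
              mul_le_mul_of_nonneg_left h2 (by positivity)
          _ = 2 ^ t := by rw [pow_succ]; ring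
      have h4 : p0 ^ t = p ^ t * (1 / 2 : ℝ) ^ (56 * t) := by
        rw [hp0, pow_mul, ← mul_pow, div_eq_mul_one_div, one_div_pow]
      rw [h4]
      calc p ^ t * (1 / 2 : ℝ) ^ (56 * t) * ∑ S, slice g t S
          = (p ^ t * ∑ S, slice g t S) * (1 / 2 : ℝ) ^ (56 * t) := by ring
        _ ≤ 2 ^ t * (1 / 2 : ℝ) ^ (56 * t) := mul_le_mul_of_nonneg_right h1 (by positivity)
        _ = (1 / 2 : ℝ) ^ (55 * t) := by
            rw [show 56 * t = t + 55 * t by ring, pow_add, ← mul_assoc, ← mul_pow]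
            norm_num
    · intro S
      unfold slice
      split_ifs
      · exact mul_nonneg (by positivity) (hg S).1
      · exact le_rfl
    · intro S hS
      by_contra hne
      apply hS
      unfold slice
      rw [if_neg hne]
  choose! G hGcost hGcov using hsl
  refine ⟨(Finset.Icc 1 N).biUnion G, ?_, ?_⟩
  · intro H hH
    have h1 := hcov H hH
    by_contra hcon
    push Not at hcon
    have h2 : ∀ t ∈ Finset.Icc 1 N, ∑ S ∈ H.powerset.filter (fun S => S.card = t), g S
        ≤ (1 / 2 : ℝ) ^ (t + 1) := by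
      intro t ht
      by_contra hlt
      push Not at hlt
      have h3 : 1 ≤ ∑ S ∈ H.powerset, slice g t S := by
        unfold slice
        rw [← Finset.sum_filter, ← Finset.mul_sum]
        have h4 : (2 : ℝ) ^ (t + 1) * (1 / 2 : ℝ) ^ (t + 1) = 1 := by
          rw [← mul_pow]; norm_num
        calc (1 : ℝ) = 2 ^ (t + 1) * (1 / 2 : ℝ) ^ (t + 1) := h4.symm
          _ ≤ 2 ^ (t + 1) * ∑ S ∈ H.powerset.filter (fun S => S.card = t), g S :=
              mul_le_mul_of_nonneg_left hlt.le (by positivity)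
      obtain ⟨T, hT, hTH⟩ := hGcov t ht H h3
      exact hcon T (Finset.mem_biUnion.2 ⟨t, ht, hT⟩) hTH
    have h5 : ∑ S ∈ H.powerset, g S = g ∅ + ∑ S ∈ H.powerset.filter (fun S => ¬ S = ∅), g S := by
      rw [← Finset.sum_filter_add_sum_filter_not H.powerset (fun S => S = ∅) g]
      congr 1
      have h6 : H.powerset.filter (fun S => S = ∅) = {∅} := by
        ext S
        simp only [Finset.mem_filter, Finset.mem_powerset, Finset.mem_singleton]
        constructor
        · intro h; exact h.2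
        · intro h; exact ⟨h ▸ Finset.empty_subset H, h⟩
      rw [h6, Finset.sum_singleton]
    have h7 : ∑ S ∈ H.powerset.filter (fun S => ¬ S = ∅), g S
        = ∑ t ∈ Finset.Icc 1 N, ∑ S ∈ H.powerset.filter (fun S => S.card = t), g S := by
      rw [← Finset.sum_fiberwise_of_maps_to (s := H.powerset.filter (fun S => ¬ S = ∅))
        (t := Finset.Icc 1 N) (g := fun S => S.card)]
      · apply Finset.sum_congr rfl
        intro t ht
        rw [Finset.filter_filter]
        apply Finset.sum_congr _ (fun _ _ => rfl)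
        apply Finset.filter_congr
        intro S _
        constructor
        · intro h
          exact h.2
        · intro h
          refine ⟨?_, h⟩
          rintro rfl
          rw [Finset.mem_Icc] at ht
          simp at h
          omega
      · intro S hS
        rw [Finset.mem_Icc]
        exact ⟨Finset.card_pos.2 (Finset.nonempty_iff_ne_empty.2 (Finset.mem_filter.1 hS).2),
          Finset.card_le_univ S⟩
    have h8 : ∀ m : ℕ, ∑ t ∈ Finset.Icc 1 m, (1 / 2 : ℝ) ^ (t + 1) = 1 / 2 - (1 / 2) ^ (m + 1) := by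
      intro m
      induction m with
      | zero => norm_num
      | succ m ih =>
        rw [Finset.sum_Icc_succ_top (by omega), ih, pow_succ (1 / 2 : ℝ) (m + 1)]
        ring
    have h9 := Finset.sum_le_sum h2
    rw [h8] at h9
    have h10 : (0 : ℝ) < (1 / 2) ^ (N + 1) := by positivity
    rw [h5, h7] at h1
    linarith
  · refine (cost_biUnion_le_sum hqpos.le _ _).trans ?_
    refine (Finset.sum_le_sum hGcost).trans ?_
    have h8 : ∀ m : ℕ, ∑ t ∈ Finset.Icc 1 m, (1 / 2 : ℝ) ^ (t + 1) = 1 / 2 - (1 / 2) ^ (m + 1) := by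
      intro m
      induction m with
      | zero => norm_num
      | succ m ih =>
        rw [Finset.sum_Icc_succ_top (by omega), ih, pow_succ (1 / 2 : ℝ) (m + 1)]
        ring
    rw [h8]
    have h10 : (0 : ℝ) < (1 / 2) ^ (N + 1) := by positivity
    linarith

end P034F
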