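import Vale.Agent.P034F.Assemble

/-! The two expectation thresholds are attained maxima, and the comparison between them. -/

namespace P034F

open Finset

variable {α : Type*} [Fintype α]

theorem small_zero {F : Set (Finset α)} (hproper : ∅ ∉ F) : IsSmall F 0 := by
  classical
  refine ⟨Finset.univ.filter (fun S => S.Nonempty), ?_, ?_⟩
  · intro H hH
    refine ⟨H, Finset.mem_filter.2 ⟨Finset.mem_univ _, ?_⟩, subset_rfl⟩
    rw [Finset.nonempty_iff_ne_empty]
    rintro rfl
    exact hproper hH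
  · have h1 : cost 0 (Finset.univ.filter (fun S : Finset α => S.Nonempty)) = 0 := by
      unfold cost
      apply Finset.sum_eq_zero
      intro S hS
      exact zero_pow ((Finset.mem_filter.1 hS).2.card_pos.ne')
    rw [h1]
    norm_num

/-- small implies fractionally small -/
theorem fracSmall_of_small {F : Set (Finset α)} {p : ℝ} (hp : 0 ≤ p) (h : IsSmall F p) :
    IsFracSmall F p := by
  classical
  obtain ⟨G, hG, hc⟩ := h
  refine ⟨fun S => if S ∈ G then 1 else 0, fun S => by dsimp only; split_ifs <;> norm_num, ?_, ?_⟩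
  · intro H hH
    obtain ⟨S, hS, hSH⟩ := hG H hH
    have h1 : (if S ∈ G then (1 : ℝ) else 0) ≤ ∑ T ∈ H.powerset, if T ∈ G then (1 : ℝ) else 0 :=
      Finset.single_le_sum (f := fun T => if T ∈ G then (1 : ℝ) else 0)
        (fun T _ => by split_ifs <;> norm_num) (Finset.mem_powerset.2 hSH)
    rwa [if_pos hS] at h1
  · refine le_trans (le_of_eq ?_) hc
    unfold cost
    simp only [ite_mul, one_mul, zero_mul]
    rw [← Finset.sum_filter, Finset.filter_mem_eq_inter, Finset.univ_inter]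

/-- the expectation threshold is positive: cover by singletons -/
theorem small_pos [Nonempty α] {F : Set (Finset α)} (hproper : ∅ ∉ F) :
    ∃ p : ℝ, 0 < p ∧ p ≤ 1 ∧ IsSmall F p := by
  classical
  have hc : (1 : ℝ) ≤ Fintype.card α := by exact_mod_cast Fintype.card_pos
  refine ⟨1 / (2 * (Fintype.card α : ℝ)), by positivity, ?_,
    Finset.univ.image (fun x : α => {x}), ?_, ?_⟩
  · rw [div_le_one (by positivity)]
    linarith
  · intro H hH
    have hne : H.Nonempty := by
      rw [Finset.nonempty_iff_ne_empty]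
      rintro rfl
      exact hproper hH
    obtain ⟨x, hx⟩ := hne
    exact ⟨{x}, Finset.mem_image_of_mem _ (Finset.mem_univ x), by simpa using hx⟩
  · unfold cost
    rw [Finset.sum_image (fun x _ y _ h => Finset.singleton_injective h)]
    simp only [Finset.card_singleton, pow_one, Finset.sum_const, Finset.card_univ, nsmul_eq_mul]
    have : (Fintype.card α : ℝ) ≠ 0 := by positivity
    apply le_of_eq
    field_simp

theorem int_attained {F : Set (Finset α)} (hproper : ∅ ∉ F) :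
    ∃ q : ℝ, IsGreatest {p : ℝ | 0 ≤ p ∧ p ≤ 1 ∧ IsSmall F p} q := by
  classical
  have hset : {p : ℝ | 0 ≤ p ∧ p ≤ 1 ∧ IsSmall F p} =
      Set.Icc 0 1 ∩ ⋃ G : Finset (Finset α), {p : ℝ | Covers G F ∧ cost p G ≤ 1 / 2} := by
    ext p
    simp only [Set.mem_setOf_eq, Set.mem_inter_iff, Set.mem_Icc, Set.mem_iUnion, IsSmall]
    tauto
  have hcl : IsClosed (⋃ G : Finset (Finset α), {p : ℝ | Covers G F ∧ cost p G ≤ 1 / 2}) := by
    refine isClosed_iUnion_of_finite fun G => ?_
    by_cases hG : Covers G F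
    · simp only [hG, true_and]
      refine isClosed_le ?_ continuous_const
      unfold cost
      fun_prop
    · simp only [hG, false_and, Set.setOf_false]
      exact isClosed_empty
  have hcpt : IsCompact {p : ℝ | 0 ≤ p ∧ p ≤ 1 ∧ IsSmall F p} := by
    rw [hset]
    exact isCompact_Icc.inter_right hcl
  exact hcpt.exists_isGreatest ⟨0, le_refl _, zero_le_one, small_zero hproper⟩

theorem frac_attained {F : Set (Finset α)} (hproper : ∅ ∉ F) :
    ∃ q : ℝ, IsGreatest {p : ℝ | 0 ≤ p ∧ p ≤ 1 ∧ IsFracSmall F p} q := by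
  classical
  have hset : {p : ℝ | 0 ≤ p ∧ p ≤ 1 ∧ IsFracSmall F p} =
      Prod.snd '' ((Set.Icc (0 : Finset α → ℝ) 1 ×ˢ Set.Icc (0 : ℝ) 1) ∩
        ((⋂ H ∈ F, {x : (Finset α → ℝ) × ℝ | 1 ≤ ∑ S ∈ H.powerset, x.1 S}) ∩
          {x : (Finset α → ℝ) × ℝ | ∑ S : Finset α, x.1 S * x.2 ^ S.card ≤ 1 / 2})) := by
    ext p
    constructor
    · rintro ⟨h0, h1, g, hg, hc, hw⟩
      refine ⟨(g, p), ⟨⟨⟨fun S => (hg S).1, fun S => (hg S).2⟩, h0, h1⟩, ?_, hw⟩, rfl⟩
      simp only [Set.mem_iInter, Set.mem_setOf_eq]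
      exact hc
    · rintro ⟨⟨g, p'⟩, ⟨⟨⟨hg0, hg1⟩, h0, h1⟩, hc, hw⟩, rfl⟩
      simp only [Set.mem_iInter, Set.mem_setOf_eq] at hc
      exact ⟨h0, h1, g, fun S => ⟨hg0 S, hg1 S⟩, hc, hw⟩
  have hcpt : IsCompact {p : ℝ | 0 ≤ p ∧ p ≤ 1 ∧ IsFracSmall F p} := by
    rw [hset]
    refine IsCompact.image ?_ continuous_snd
    refine (isCompact_Icc.prod isCompact_Icc).inter_right (IsClosed.inter ?_ ?_)
    · refine isClosed_biInter fun H _ => isClosed_le continuous_const ?_
      fun_prop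
    · refine isClosed_le ?_ continuous_const
      fun_prop
  exact hcpt.exists_isGreatest ⟨0, le_refl _, zero_le_one,
    fracSmall_of_small le_rfl (small_zero hproper)⟩

/-- The comparison of the two thresholds, with attained maxima. -/
theorem compare [Nonempty α] {F : Set (Finset α)} (hproper : ∅ ∉ F) :
    ∃ q qf : ℝ, IsGreatest {p : ℝ | 0 ≤ p ∧ p ≤ 1 ∧ IsSmall F p} q ∧
      IsGreatest {p : ℝ | 0 ≤ p ∧ p ≤ 1 ∧ IsFracSmall F p} qf ∧
      0 < q ∧ q ≤ qf ∧ qf ≤ 2 ^ 65 * q := by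
  classical
  obtain ⟨q, hq⟩ := int_attained hproper
  obtain ⟨qf, hqf⟩ := frac_attained hproper
  refine ⟨q, qf, hq, hqf, ?_, ?_, ?_⟩
  · obtain ⟨p, hp, hp1, h⟩ := small_pos hproper
    exact hp.trans_le (hq.2 ⟨hp.le, hp1, h⟩)
  · exact hqf.2 ⟨hq.1.1, hq.1.2.1, fracSmall_of_small hq.1.1 hq.1.2.2⟩
  · obtain ⟨⟨h0, h1, h⟩, -⟩ := hqf
    rcases h0.eq_or_lt with h0 | hpos
    · rw [← h0]
      have := hq.1.1
      positivity
    · have h3 : qf / 2 ^ 65 ≤ q := by
        refine hq.2 ⟨by positivity, ?_, small_of_fracSmall hpos h1 h⟩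
        rw [div_le_one (by positivity)]
        exact h1.trans (by norm_num)
      rw [div_le_iff₀ (by positivity)] at h3
      linarith

end P034F
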