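import Vale.Agent.P034F.Basic

/-! The initial family in Lemma A of `Vale/Agent/P034/PROOF.md`. -/

namespace P034F

open Finset

variable {α : Type*} [Fintype α] [DecidableEq α]

omit [Fintype α] in
lemma cost_biUnion_le {ι : Type*} [DecidableEq ι] {q : ℝ} (hq : 0 ≤ q) (s : Finset ι)
    (U : ι → Finset (Finset α)) : cost q (s.biUnion U) ≤ ∑ r ∈ s, cost q (U r) := by
  induction s using Finset.induction_on with
  | empty => simp [cost]
  | insert a s ha ih =>
    rw [Finset.biUnion_insert, Finset.sum_insert ha]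
    have h1 : cost q (U a ∪ s.biUnion U) + cost q (U a ∩ s.biUnion U) =
        cost q (U a) + cost q (s.biUnion U) := Finset.sum_union_inter
    have h2 : 0 ≤ cost q (U a ∩ s.biUnion U) := Finset.sum_nonneg fun _ _ => pow_nonneg hq _
    linarith

omit [Fintype α] in
lemma cost_image_le {ι : Type*} {q : ℝ} (hq : 0 ≤ q) (s : Finset ι) (g : ι → Finset α) :
    cost q (s.image g) ≤ ∑ x ∈ s, q ^ (g x).card := by
  classical
  unfold cost
  induction s using Finset.induction_on with
  | empty => simp
  | insert a s ha ih =>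
    rw [Finset.image_insert, Finset.sum_insert ha]
    by_cases h : g a ∈ s.image g
    · rw [Finset.insert_eq_of_mem h]
      have := pow_nonneg hq (g a).card
      linarith
    · rw [Finset.sum_insert h]
      linarith

/-- unions of `r` members of `s`. -/
def unions (s : Finset (Finset α)) : ℕ → Finset (Finset α)
  | 0 => {∅}
  | r + 1 => ((unions s r) ×ˢ s).image (fun x => x.1 ∪ x.2)

omit [Fintype α] in
lemma card_of_mem_unions {s : Finset (Finset α)} {k : ℕ} (hs : ∀ B ∈ s, B.card = k) :
    ∀ (r : ℕ) (V : Finset α), V ∈ unions s r → V.card ≤ k * r := by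
  intro r
  induction r with
  | zero => intro V hV; simp [unions] at hV; simp [hV]
  | succ r ih =>
    intro V hV
    simp only [unions, Finset.mem_image, Finset.mem_product, Prod.exists] at hV
    obtain ⟨a, b, ⟨ha, hb⟩, rfl⟩ := hV
    calc (a ∪ b).card ≤ a.card + b.card := Finset.card_union_le a b
      _ ≤ k * r + k := add_le_add (ih a ha) (hs b hb).le
      _ = k * (r + 1) := by ring

omit [Fintype α] in
lemma biUnion_mem_unions (s : Finset (Finset α)) :
    ∀ (r : ℕ) (t : Finset (Finset α)), t ⊆ s → t.card = r → t.biUnion id ∈ unions s r := by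
  intro r
  induction r with
  | zero =>
    intro t _ hc
    rw [Finset.card_eq_zero.1 hc]
    simp [unions]
  | succ r ih =>
    intro t ht hc
    obtain ⟨b, hb⟩ : t.Nonempty := Finset.card_pos.1 (by omega)
    have h1 := ih (t.erase b) ((Finset.erase_subset _ _).trans ht)
      (by rw [Finset.card_erase_of_mem hb, hc]; rfl)
    simp only [unions, Finset.mem_image, Finset.mem_product, Prod.exists]
    refine ⟨(t.erase b).biUnion id, b, ⟨h1, ht hb⟩, ?_⟩
    conv_rhs => rw [← Finset.insert_erase hb]
    rw [Finset.biUnion_insert, Finset.union_comm]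
    rfl

lemma sum_pow_sdiff_le (k m : ℕ) {p q : ℝ} (hq : 0 < q) (hqp : q ≤ p)
    (f : Finset α → ℝ) (hf : ∀ B, 0 ≤ f B) (hfk : ∀ B, f B ≠ 0 → B.card = k)
    {θ ε : ℝ} (hθ : 0 < θ) (hf1 : ∀ B, f B ≠ 0 → θ ≤ f B) (hεm : ε ≤ m * θ)
    (hdeg : ∀ B' : Finset α,
      p ^ (k - B'.card) * ∑ B ∈ Finset.univ.filter (fun B => B' ⊆ B), f B ≤ ε)
    (V : Finset α) :
    ∑ B ∈ Finset.univ.filter (fun B => f B ≠ 0), q ^ (B \ V).card ≤ 2 ^ V.card * m := by
  set supp : Finset (Finset α) := Finset.univ.filter (fun B => f B ≠ 0) with hsupp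
  -- split by `B' = B ∩ V`
  have h1 : ∑ B ∈ supp, q ^ (B \ V).card =
      ∑ B' ∈ V.powerset, ∑ B ∈ supp.filter (fun B => B ∩ V = B'), q ^ (B \ V).card := by
    symm
    apply Finset.sum_fiberwise_of_maps_to
    intro B _
    exact Finset.mem_powerset.2 Finset.inter_subset_right
  rw [h1]
  have h2 : ∀ B' ∈ V.powerset, ∑ B ∈ supp.filter (fun B => B ∩ V = B'), q ^ (B \ V).card ≤ m := by
    intro B' _
    have h3 : ∀ B ∈ supp.filter (fun B => B ∩ V = B'), q ^ (B \ V).card * θ ≤
        p ^ (k - B'.card) * f B := by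
      intro B hB
      obtain ⟨hB1, hB2⟩ := Finset.mem_filter.1 hB
      have hB3 : f B ≠ 0 := (Finset.mem_filter.1 hB1).2
      have hcard : (B \ V).card = k - B'.card := by
        rw [← hB2, ← hfk B hB3, ← Finset.card_sdiff_add_card_inter B V]
        omega
      rw [hcard]
      apply mul_le_mul (pow_le_pow_left₀ hq.le hqp _) (hf1 B hB3) hθ.le
      exact pow_nonneg (hq.le.trans hqp) _
    have h4 : (∑ B ∈ supp.filter (fun B => B ∩ V = B'), q ^ (B \ V).card) * θ ≤ m * θ := by
      rw [Finset.sum_mul]
      refine (Finset.sum_le_sum h3).trans ?_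
      rw [← Finset.mul_sum]
      refine le_trans ?_ ((hdeg B').trans hεm)
      apply mul_le_mul_of_nonneg_left _ (pow_nonneg (hq.le.trans hqp) _)
      apply Finset.sum_le_sum_of_subset_of_nonneg
      · intro B hB
        obtain ⟨_, hB2⟩ := Finset.mem_filter.1 hB
        rw [Finset.mem_filter]
        exact ⟨Finset.mem_univ _, by rw [← hB2]; exact Finset.inter_subset_left⟩
      · intro B _ _; exact hf B
    exact le_of_mul_le_mul_right h4 hθ
  refine (Finset.sum_le_sum h2).trans ?_
  rw [Finset.sum_const, Finset.card_powerset, nsmul_eq_mul]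
  push_cast
  exact le_rfl

/-- The initial family: unions of at most `m` sets of the support of `f`. -/
theorem initial_family (k m : ℕ) (hm : 1 ≤ m) {p q : ℝ} (hq : 0 < q) (hqp : q ≤ p) (_hp1 : p ≤ 1)
    (f : Finset α → ℝ) (hf : ∀ B, 0 ≤ f B) (hfk : ∀ B, f B ≠ 0 → B.card = k)
    {θ ε : ℝ} (hθ : 0 < θ) (hf1 : ∀ B, f B ≠ 0 → θ ≤ f B) (_hε : 0 < ε) (hεm : ε ≤ m * θ)
    (hdeg : ∀ B' : Finset α,
      p ^ (k - B'.card) * ∑ B ∈ Finset.univ.filter (fun B => B' ⊆ B), f B ≤ ε) :
    ∃ G : Finset (Finset α), (∀ R ∈ G, ε ≤ ∑ B ∈ R.powerset, f B) ∧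
      (∀ H : Finset α, ε ≤ ∑ B ∈ H.powerset, f B → ∃ R ∈ G, R ⊆ H) ∧
      cost q G ≤ 2 ^ ((k + 2) * m ^ 2) := by
  set supp : Finset (Finset α) := Finset.univ.filter (fun B => f B ≠ 0) with hsupp
  have hsk : ∀ B ∈ supp, B.card = k := fun B hB => hfk B (Finset.mem_filter.1 hB).2
  set a : ℝ := 2 ^ (k * m) * m with ha
  have hm1 : (1 : ℝ) ≤ m := by exact_mod_cast hm
  have ha1 : 1 ≤ a := by
    have : (1 : ℝ) ≤ 2 ^ (k * m) := one_le_pow₀ (by norm_num)
    nlinarith
  have ha0 : 0 ≤ a := by linarith
  -- cost of the families of unions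
  have hcost : ∀ r, r ≤ m → cost q (unions supp r) ≤ a ^ r := by
    intro r
    induction r with
    | zero => intro _; simp [unions, cost]
    | succ r ih =>
      intro hr
      have ihr := ih (by omega)
      calc cost q (unions supp (r + 1))
          ≤ ∑ x ∈ (unions supp r) ×ˢ supp, q ^ (x.1 ∪ x.2).card := cost_image_le hq.le _ _
        _ = ∑ V ∈ unions supp r, ∑ B ∈ supp, q ^ (V ∪ B).card := Finset.sum_product _ _ _
        _ = ∑ V ∈ unions supp r, q ^ V.card * ∑ B ∈ supp, q ^ (B \ V).card := by
            apply Finset.sum_congr rfl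
            intro V _
            rw [Finset.mul_sum]
            apply Finset.sum_congr rfl
            intro B _
            rw [← pow_add]
            congr 1
            rw [← Finset.union_sdiff_self_eq_union, Finset.card_union_of_disjoint
              Finset.disjoint_sdiff]
        _ ≤ ∑ V ∈ unions supp r, q ^ V.card * a := by
            apply Finset.sum_le_sum
            intro V hV
            apply mul_le_mul_of_nonneg_left _ (pow_nonneg hq.le _)
            refine (sum_pow_sdiff_le k m hq hqp f hf hfk hθ hf1 hεm hdeg V).trans ?_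
            rw [ha]
            apply mul_le_mul_of_nonneg_right _ (by linarith)
            apply pow_le_pow_right₀ (by norm_num)
            refine (card_of_mem_unions hsk r V hV).trans ?_
            exact Nat.mul_le_mul_left k (by omega)
        _ = cost q (unions supp r) * a := by rw [← Finset.sum_mul]; rfl
        _ ≤ a ^ r * a := mul_le_mul_of_nonneg_right ihr ha0
        _ = a ^ (r + 1) := (pow_succ a r).symm
  refine ⟨((Finset.range (m + 1)).biUnion (unions supp)).filter
    (fun R => ε ≤ ∑ B ∈ R.powerset, f B), ?_, ?_, ?_⟩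
  · intro R hR
    exact (Finset.mem_filter.1 hR).2
  · intro H hH
    -- a subfamily of members of the support
    have key : ∀ t : Finset (Finset α), t ⊆ supp.filter (fun B => B ⊆ H) → t.card ≤ m →
        ε ≤ ∑ B ∈ t, f B → ∃ R ∈ ((Finset.range (m + 1)).biUnion (unions supp)).filter
          (fun R => ε ≤ ∑ B ∈ R.powerset, f B), R ⊆ H := by
      intro t ht htm htε
      refine ⟨t.biUnion id, ?_, ?_⟩
      · rw [Finset.mem_filter]
        constructor
        · rw [Finset.mem_biUnion]
          refine ⟨t.card, Finset.mem_range.2 (by omega), ?_⟩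
          exact biUnion_mem_unions supp t.card t (ht.trans (Finset.filter_subset _ _)) rfl
        · refine htε.trans ?_
          apply Finset.sum_le_sum_of_subset_of_nonneg
          · intro B hB
            rw [Finset.mem_powerset]
            exact Finset.subset_biUnion_of_mem id hB
          · intro B _ _; exact hf B
      · intro x hx
        obtain ⟨B, hB, hxB⟩ := Finset.mem_biUnion.1 hx
        exact (Finset.mem_filter.1 (ht hB)).2 hxB
    have hsum : ∑ B ∈ H.powerset, f B = ∑ B ∈ supp.filter (fun B => B ⊆ H), f B := by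
      symm
      apply Finset.sum_subset
      · intro B hB
        exact Finset.mem_powerset.2 (Finset.mem_filter.1 hB).2
      · intro B hB hB2
        by_contra h0
        apply hB2
        rw [Finset.mem_filter]
        exact ⟨Finset.mem_filter.2 ⟨Finset.mem_univ _, h0⟩, Finset.mem_powerset.1 hB⟩
    rcases le_total (supp.filter (fun B => B ⊆ H)).card m with hc | hc
    · exact key _ subset_rfl hc (by rw [← hsum]; exact hH)
    · obtain ⟨t, ht, htc⟩ := Finset.exists_subset_card_eq hc
      refine key t ht htc.le ?_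
      have h1 : ∑ B ∈ t, θ ≤ ∑ B ∈ t, f B := by
        apply Finset.sum_le_sum
        intro B hB
        exact hf1 B (Finset.mem_filter.1 (Finset.mem_filter.1 (ht hB)).1).2
      rw [Finset.sum_const, htc, nsmul_eq_mul] at h1
      linarith
  · have h1 : cost q (((Finset.range (m + 1)).biUnion (unions supp)).filter
        (fun R => ε ≤ ∑ B ∈ R.powerset, f B)) ≤ ∑ r ∈ Finset.range (m + 1), cost q (unions supp r) := by
      have h2 : cost q (((Finset.range (m + 1)).biUnion (unions supp)).filter
        (fun R => ε ≤ ∑ B ∈ R.powerset, f B)) ≤ cost q ((Finset.range (m + 1)).biUnion (unions supp)) := by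
        unfold cost
        apply Finset.sum_le_sum_of_subset_of_nonneg (Finset.filter_subset _ _)
        intro i _ _; exact pow_nonneg hq.le _
      refine h2.trans ?_
      exact cost_biUnion_le hq.le _ _
    refine h1.trans ?_
    have h3 : ∑ r ∈ Finset.range (m + 1), cost q (unions supp r) ≤
        ∑ r ∈ Finset.range (m + 1), a ^ m := by
      apply Finset.sum_le_sum
      intro r hr
      have hr' : r ≤ m := by have := Finset.mem_range.1 hr; omega
      exact (hcost r hr').trans (pow_le_pow_right₀ ha1 hr')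
    refine h3.trans ?_
    rw [Finset.sum_const, Finset.card_range, nsmul_eq_mul]
    have h4 : ((m + 1 : ℕ) : ℝ) ≤ 2 ^ (m ^ 2) := by
      have : m + 1 ≤ 2 ^ m := Nat.lt_two_pow_self
      have h5 : m ≤ m ^ 2 := by nlinarith
      have h6 : (2:ℕ) ^ m ≤ 2 ^ (m ^ 2) := Nat.pow_le_pow_right (by norm_num) h5
      exact_mod_cast this.trans h6
    have h5 : a ^ m ≤ 2 ^ (k * m ^ 2) * 2 ^ (m ^ 2) := by
      rw [ha, mul_pow, ← pow_mul]
      have h6 : k * m * m = k * m ^ 2 := by ring
      rw [h6]
      apply mul_le_mul_of_nonneg_left _ (by positivity)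
      have h7 : (m : ℝ) ≤ 2 ^ m := by exact_mod_cast Nat.lt_two_pow_self.le
      calc (m : ℝ) ^ m ≤ (2 ^ m) ^ m := pow_le_pow_left₀ (by positivity) h7 m
        _ = 2 ^ (m ^ 2) := by rw [← pow_mul]; congr 1; ring
    calc ((m + 1 : ℕ) : ℝ) * a ^ m ≤ 2 ^ (m ^ 2) * (2 ^ (k * m ^ 2) * 2 ^ (m ^ 2)) :=
          mul_le_mul h4 h5 (by positivity) (by positivity)
      _ = 2 ^ ((k + 2) * m ^ 2) := by
          rw [← pow_add, ← pow_add]; congr 1; ring

end P034F
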