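import Vale.Agent.P034F.Basic

/-! Sets of large potential are large. -/

namespace P034F

open Finset

variable {α : Type*} [Fintype α] [DecidableEq α]

/-- Under the degree hypotheses every set of potential at least one has at least `3 P - 1`
elements. -/
lemma min_size (k P : ℕ) {p : ℝ} (hp : 0 < p)
    (f : Finset α → ℝ) (hf : ∀ B, 0 ≤ f B) (hfk : ∀ B, f B ≠ 0 → B.card = k)
    (ε : ℝ) (hε : 0 < ε) (h0 : p ^ k * ∑ B, f B ≤ ε / 2)
    (hdeg : ∀ B' : Finset α, B'.Nonempty →
      p ^ (k - B'.card) * ∑ B ∈ Finset.univ.filter (fun B => B' ⊆ B), f B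
        ≤ ε * (1 / 2 : ℝ) ^ (3 * P)) {s : ℝ} (hs : 0 ≤ s) (hsp : s ≤ p) (T : Finset α)
    (hT : 1 ≤ pot (fun B => f B / ε) s T) : 3 * P - 1 ≤ T.card := by
  by_contra hcon
  push Not at hcon
  have h1 : ε ≤ ∑ B, f B * p ^ (B \ T).card := by
    have h2 : pot (fun B => f B / ε) s T ≤ pot (fun B => f B / ε) p T :=
      pot_mono _ (fun B => div_nonneg (hf B) hε.le) hs hsp T
    have h3 : pot (fun B => f B / ε) p T = (∑ B, f B * p ^ (B \ T).card) / ε := by
      unfold pot
      rw [Finset.sum_div]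
      apply Finset.sum_congr rfl
      intro B _
      ring
    rw [h3] at h2
    have h4 := hT.trans h2
    rwa [one_le_div hε] at h4
  have h2 : ∑ B, f B * p ^ (B \ T).card
      ≤ ∑ B' ∈ T.powerset, p ^ (k - B'.card) * ∑ B ∈ Finset.univ.filter (fun B => B' ⊆ B), f B := by
    have h3 : ∀ B' : Finset α, p ^ (k - B'.card) * ∑ B ∈ Finset.univ.filter (fun B => B' ⊆ B), f B
        = ∑ B, if B' ⊆ B then f B * p ^ (k - B'.card) else 0 := by
      intro B'
      rw [Finset.mul_sum, Finset.sum_filter]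
      apply Finset.sum_congr rfl
      intro B _
      split_ifs
      · ring
      · rfl
    simp only [h3]
    rw [Finset.sum_comm]
    apply Finset.sum_le_sum
    intro B _
    by_cases hB : f B = 0
    · simp [hB]
    · have hBk := hfk B hB
      have h4 : (B \ T).card = k - (B ∩ T).card := by
        rw [Finset.card_sdiff, hBk, Finset.inter_comm]
      have h5 : (if B ∩ T ⊆ B then f B * p ^ (k - (B ∩ T).card) else 0)
          ≤ ∑ B' ∈ T.powerset, if B' ⊆ B then f B * p ^ (k - B'.card) else 0 := by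
        apply Finset.single_le_sum (f := fun B' => if B' ⊆ B then f B * p ^ (k - B'.card) else 0)
        · intro B' _
          split_ifs
          · exact mul_nonneg (hf B) (pow_nonneg hp.le _)
          · exact le_rfl
        · rw [Finset.mem_powerset]
          exact Finset.inter_subset_right
      rw [if_pos Finset.inter_subset_left] at h5
      rw [h4]
      exact h5
  have h3 : ∑ B' ∈ T.powerset, p ^ (k - B'.card) *
      ∑ B ∈ Finset.univ.filter (fun B => B' ⊆ B), f B
      ≤ ε / 2 + 2 ^ T.card * (ε * (1 / 2 : ℝ) ^ (3 * P)) := by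
    rw [← Finset.add_sum_erase _ _ (Finset.empty_mem_powerset T)]
    apply add_le_add
    · simpa using h0
    · calc ∑ B' ∈ T.powerset.erase ∅, p ^ (k - B'.card) *
            ∑ B ∈ Finset.univ.filter (fun B => B' ⊆ B), f B
          ≤ ∑ B' ∈ T.powerset.erase ∅, ε * (1 / 2 : ℝ) ^ (3 * P) := by
            apply Finset.sum_le_sum
            intro B' hB'
            exact hdeg B' (Finset.nonempty_iff_ne_empty.2 (Finset.mem_erase.1 hB').1)
        _ ≤ ∑ B' ∈ T.powerset, ε * (1 / 2 : ℝ) ^ (3 * P) := by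
            apply Finset.sum_le_sum_of_subset_of_nonneg (Finset.erase_subset _ _)
            intro _ _ _
            positivity
        _ = 2 ^ T.card * (ε * (1 / 2 : ℝ) ^ (3 * P)) := by
            rw [Finset.sum_const, Finset.card_powerset, nsmul_eq_mul]
            push_cast
            ring
  have h4 : (2 : ℝ) ^ T.card * (1 / 2 : ℝ) ^ (3 * P) ≤ 1 / 4 := by
    have h5 : 3 * P = T.card + (3 * P - T.card) := by omega
    rw [h5, pow_add, ← mul_assoc, ← mul_pow]
    have h6 : ((2 : ℝ) * (1 / 2)) ^ T.card = 1 := by norm_num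
    rw [h6, one_mul]
    calc (1 / 2 : ℝ) ^ (3 * P - T.card) ≤ (1 / 2 : ℝ) ^ 2 :=
          pow_le_pow_of_le_one (by norm_num) (by norm_num) (by omega)
      _ = 1 / 4 := by norm_num
  have h5 : (2 : ℝ) ^ T.card * (ε * (1 / 2 : ℝ) ^ (3 * P)) ≤ ε * (1 / 4) := by
    calc (2 : ℝ) ^ T.card * (ε * (1 / 2 : ℝ) ^ (3 * P))
        = ε * ((2 : ℝ) ^ T.card * (1 / 2 : ℝ) ^ (3 * P)) := by ring
      _ ≤ ε * (1 / 4) := mul_le_mul_of_nonneg_left h4 hε.le
  linarith

end P034F
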