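import Vale.Agent.P034F.Init
import Vale.Agent.P034F.LocalMin

/-! Lemma A of `Vale/Agent/P034/PROOF.md`: the local covering lemma. -/

namespace P034F

open Finset

variable {α : Type*} [Fintype α] [DecidableEq α]

lemma numeric_bound (k P : ℕ) (hkP : k ≤ P) (hP : 10 ≤ P) :
    (2 : ℝ) + ((4 * 5 ^ k * P + P + 6 : ℕ) : ℝ) ≤ 2 ^ (12 * P - 9) := by
  have h1 : 4 * 5 ^ k * P + P + 6 + 2 ≤ 2 ^ (12 * P - 9) := by
    have h5 : 5 ^ k ≤ 2 ^ (3 * P) := by
      calc 5 ^ k ≤ 5 ^ P := Nat.pow_le_pow_right (by norm_num) hkP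
        _ ≤ 8 ^ P := Nat.pow_le_pow_left (by norm_num) P
        _ = 2 ^ (3 * P) := by rw [pow_mul]; norm_num
    have hP2 : P ≤ 2 ^ P := Nat.lt_two_pow_self.le
    have h6 : 4 * 5 ^ k * P ≤ 2 ^ (4 * P + 2) := by
      calc 4 * 5 ^ k * P ≤ 4 * 2 ^ (3 * P) * 2 ^ P := by gcongr
        _ = 2 ^ (4 * P + 2) := by
          rw [show 4 * P + 2 = 2 + 3 * P + P by ring, pow_add, pow_add]
          norm_num
    have h7 : P + 6 + 2 ≤ 2 ^ (4 * P + 2) := by
      calc P + 6 + 2 ≤ 2 ^ P * 4 := by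
            have : 1024 ≤ 2 ^ P := by
              calc 1024 = 2 ^ 10 := by norm_num
                _ ≤ 2 ^ P := Nat.pow_le_pow_right (by norm_num) hP
            omega
        _ = 2 ^ (P + 2) := by rw [pow_add]; norm_num
        _ ≤ 2 ^ (4 * P + 2) := Nat.pow_le_pow_right (by norm_num) (by omega)
    calc 4 * 5 ^ k * P + P + 6 + 2 = 4 * 5 ^ k * P + (P + 6 + 2) := by ring
      _ ≤ 2 ^ (4 * P + 2) + 2 ^ (4 * P + 2) := Nat.add_le_add h6 h7
      _ = 2 ^ (4 * P + 3) := by ring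
      _ ≤ 2 ^ (12 * P - 9) := Nat.pow_le_pow_right (by norm_num) (by omega)
  have h2 : ((4 * 5 ^ k * P + P + 6 + 2 : ℕ) : ℝ) ≤ ((2 ^ (12 * P - 9) : ℕ) : ℝ) := by
    exact_mod_cast h1
  push_cast at h2 ⊢
  linarith

theorem local_cover (k P : ℕ) (hk : 1 ≤ k) (hkP : k ≤ P) (hP : 10 ≤ P) (p q : ℝ) (hq : 0 < q)
    (hqp : 512 * q ≤ p) (hp1 : p ≤ 1) (f : Finset α → ℝ) (hf : ∀ B, 0 ≤ f B)
    (hfk : ∀ B, f B ≠ 0 → B.card = k)
    (hf1 : ∀ B, f B ≠ 0 → (1 / 2 : ℝ) ^ (2 * 5 ^ k * P) ≤ f B)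
    (ε : ℝ) (hε : 0 < ε) (hε3 : ε ≤ 3) (h0 : p ^ k * ∑ B, f B ≤ ε / 2)
    (hdeg : ∀ B' : Finset α, B'.Nonempty →
      p ^ (k - B'.card) * ∑ B ∈ Finset.univ.filter (fun B => B' ⊆ B), f B
        ≤ ε * (1 / 2 : ℝ) ^ (3 * P)) :
    ∃ G : Finset (Finset α), cost q G ≤ (1 / 2 : ℝ) ^ (12 * P + 1) ∧
      ∀ H : Finset α, ε ≤ ∑ B ∈ H.powerset, f B → ∃ T ∈ G, T ⊆ H := by
  have hp : 0 < p := by linarith
  have hlog2 : Real.log 2 ≤ 1 := by
    have := Real.log_two_lt_d9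
    linarith
  have hlog20 : 0 < Real.log 2 := Real.log_pos (by norm_num)
  -- the initial family
  set θ : ℝ := (1 / 2 : ℝ) ^ (2 * 5 ^ k * P) with hθ
  have hθ0 : 0 < θ := by positivity
  set a : ℕ := 2 * 5 ^ k * P + 2 with ha
  set m : ℕ := 2 ^ a with hm
  have hm1 : 1 ≤ m := Nat.one_le_two_pow
  have hεm : ε ≤ m * θ := by
    have h1 : (m : ℝ) * θ = 4 := by
      rw [hm, hθ, ha]
      push_cast
      rw [pow_add, mul_assoc, mul_comm ((2 : ℝ) ^ 2), ← mul_assoc, ← mul_pow]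
      norm_num
    rw [h1]
    linarith
  obtain ⟨G0, hG0, hG0cov, hG0cost⟩ := initial_family k m hm1 hq (by linarith : q ≤ p) hp1 f hf hfk
    hθ0 hf1 hε hεm (by
      intro B'
      by_cases hB' : B'.Nonempty
      · refine (hdeg B' hB').trans ?_
        calc ε * (1 / 2 : ℝ) ^ (3 * P) ≤ ε * 1 :=
              mul_le_mul_of_nonneg_left (pow_le_one₀ (by norm_num) (by norm_num)) hε.le
          _ = ε := mul_one ε
      · rw [Finset.not_nonempty_iff_eq_empty] at hB'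
        subst hB'
        have h1 : Finset.univ.filter (fun B : Finset α => ∅ ⊆ B) = Finset.univ := by
          ext B
          simp
        rw [h1, Finset.card_empty, Nat.sub_zero]
        linarith)
  set E0 : ℕ := (k + 2) * m ^ 2 with hE0
  set g : Finset α → ℝ := fun B => f B / ε with hg
  have hg0 : ∀ B, 0 ≤ g B := fun B => div_nonneg (hf B) hε.le
  have hmin : ∀ s : ℝ, 0 ≤ s → s ≤ p → ∀ T, 1 ≤ pot g s T → 3 * P - 1 ≤ T.card :=
    fun s hs hsp T hT => min_size k P hp f hf hfk ε hε h0 hdeg hs hsp T hT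
  have hpot0 : ∀ R ∈ G0, 1 ≤ pot g 0 R := by
    intro R hR
    have h1 := hG0 R hR
    have h2 : (∑ S ∈ R.powerset, f S) / ε = ∑ S ∈ R.powerset, g S * (0 : ℝ) ^ (S \ R).card := by
      rw [Finset.sum_div]
      apply Finset.sum_congr rfl
      intro S hS
      rw [Finset.sdiff_eq_empty_iff_subset.2 (Finset.mem_powerset.1 hS), Finset.card_empty,
        pow_zero, mul_one]
    have h3 : 1 ≤ (∑ S ∈ R.powerset, f S) / ε := by
      rwa [one_le_div hε]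
    rw [h2] at h3
    refine h3.trans ?_
    unfold pot
    apply Finset.sum_le_sum_of_subset_of_nonneg (Finset.subset_univ _)
    intro S _ _
    exact mul_nonneg (hg0 S) (pow_nonneg le_rfl _)
  -- two steps
  obtain ⟨G1, hG1, hcov1, hc1⟩ := step g hg0 (le_refl (0 : ℝ)) (by norm_num) hq
    (by norm_num : (1 : ℝ) ≤ 256) (by linarith : (0 : ℝ) + 256 * q ≤ 256 * q) (3 * P - 1)
    (hmin (256 * q) (by positivity) (by linarith)) _ G0 le_rfl hpot0
  obtain ⟨G2, hG2, hcov2, hc2⟩ := step g hg0 (by positivity : 0 ≤ 256 * q) (by linarith) hq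
    (by norm_num : (1 : ℝ) ≤ 256) (by linarith : 256 * q + 256 * q ≤ 512 * q) (3 * P - 1)
    (hmin (512 * q) (by positivity) hqp) _ G1 le_rfl hG1
  have hLam : (256 : ℝ) ^ (3 * P - 1) = 2 ^ (24 * P - 8) := by
    rw [show (256 : ℝ) = 2 ^ 8 by norm_num, ← pow_mul]
    congr 1
    omega
  rw [hLam] at hc1 hc2
  have hc1' : 2 ^ (24 * P - 8) * cost q G1 ≤ 2 + ((24 * P - 8 + E0 : ℕ) : ℝ) := by
    have h1 : 2 ^ (24 * P - 8) * cost q G0 ≤ 2 ^ (24 * P - 8 + E0) := by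
      rw [pow_add]
      exact mul_le_mul_of_nonneg_left hG0cost (by positivity)
    refine hc1.trans ((phi_le (one_le_pow₀ (by norm_num)) h1).trans ?_)
    rw [Real.log_pow]
    have h2 : ((24 * P - 8 + E0 : ℕ) : ℝ) * Real.log 2 ≤ ((24 * P - 8 + E0 : ℕ) : ℝ) * 1 :=
      mul_le_mul_of_nonneg_left hlog2 (Nat.cast_nonneg _)
    linarith
  set b : ℕ := 4 * 5 ^ k * P + P + 6 with hb
  have hE1 : (2 : ℝ) + ((24 * P - 8 + E0 : ℕ) : ℝ) ≤ 2 ^ b := by
    have h1 : 2 + (24 * P - 8 + E0) ≤ 2 ^ b := by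
      have h2 : k + 2 ≤ 2 ^ (P + 1) := by
        have h3 : P < 2 ^ P := Nat.lt_two_pow_self
        rw [pow_succ]
        omega
      have h4 : E0 ≤ 2 ^ (2 * a + P + 1) := by
        rw [hE0, hm]
        calc (k + 2) * (2 ^ a) ^ 2 ≤ 2 ^ (P + 1) * (2 ^ a) ^ 2 := by gcongr
          _ = 2 ^ (2 * a + P + 1) := by
            rw [← pow_mul, ← pow_add]
            congr 1
            ring
      have h5 : 2 + (24 * P - 8) ≤ 2 ^ (2 * a + P + 1) := by
        have h6 : P < 2 ^ P := Nat.lt_two_pow_self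
        calc 2 + (24 * P - 8) ≤ 2 ^ P * 32 := by omega
          _ = 2 ^ (P + 5) := by rw [pow_add]; norm_num
          _ ≤ 2 ^ (2 * a + P + 1) := Nat.pow_le_pow_right (by norm_num) (by omega)
      calc 2 + (24 * P - 8 + E0) = 2 + (24 * P - 8) + E0 := by ring
        _ ≤ 2 ^ (2 * a + P + 1) + 2 ^ (2 * a + P + 1) := Nat.add_le_add h5 h4
        _ = 2 ^ (2 * a + P + 2) := by ring
        _ = 2 ^ b := by
            congr 1
            rw [ha, hb]
            ring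
    have h2 : ((2 + (24 * P - 8 + E0) : ℕ) : ℝ) ≤ ((2 ^ b : ℕ) : ℝ) := by exact_mod_cast h1
    rw [Nat.cast_add, Nat.cast_pow] at h2
    exact_mod_cast h2
  have hc2' : 2 ^ (24 * P - 8) * cost q G2 ≤ 2 + (b : ℝ) := by
    refine hc2.trans ((phi_le (one_le_pow₀ (by norm_num : (1 : ℝ) ≤ 2)) (hc1'.trans hE1)).trans ?_)
    rw [Real.log_pow]
    have h2 : (b : ℝ) * Real.log 2 ≤ (b : ℝ) * 1 :=
      mul_le_mul_of_nonneg_left hlog2 (Nat.cast_nonneg _)
    linarith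
  have hnum := numeric_bound k P hkP hP
  refine ⟨G2, ?_, ?_⟩
  · have h1 : 2 ^ (24 * P - 8) * cost q G2 ≤ 2 ^ (12 * P - 9) := hc2'.trans hnum
    have h2 : (2 : ℝ) ^ (24 * P - 8) * (1 / 2 : ℝ) ^ (12 * P + 1) = 2 ^ (12 * P - 9) := by
      rw [show 24 * P - 8 = (12 * P - 9) + (12 * P + 1) by omega, pow_add, mul_assoc, ← mul_pow]
      norm_num
    rw [← h2] at h1
    exact le_of_mul_le_mul_left h1 (by positivity)
  · intro H hH
    obtain ⟨R, hR, hRH⟩ := hG0cov H hH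
    obtain ⟨T, hT, hTR⟩ := hcov1 R hR
    obtain ⟨U, hU, hUT⟩ := hcov2 T hT
    exact ⟨U, hU, hUT.trans (hTR.trans hRH)⟩

end P034F
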