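import Vale.Agent.P034F.Basic

/-! The canonical greedy partition used in Lemma B of `Vale/Agent/P034/PROOF.md`. -/

namespace P034F

open Finset

variable {α : Type*} [Fintype α] [DecidableEq α]

/-- Total weight of the sets containing `B`. -/
noncomputable def dg (g : Finset α → ℝ) (B : Finset α) : ℝ :=
  ∑ S ∈ Finset.univ.filter (fun S => B ⊆ S), g S

/-- The part of `g` with label `B`, with `B` removed. -/
noncomputable def link (g : Finset α → ℝ) (β : Finset α → Finset α) (B : Finset α) :
    Finset α → ℝ :=
  fun R => if Disjoint R B ∧ β (R ∪ B) = B then g (R ∪ B) else 0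

lemma link_nonneg {g : Finset α → ℝ} (hg : ∀ S, 0 ≤ g S) (β : Finset α → Finset α)
    (B R : Finset α) : 0 ≤ link g β B R := by
  unfold link
  split_ifs
  · exact hg _
  · exact le_rfl

lemma sum_link (g : Finset α → ℝ) (β : Finset α → Finset α) (hβ : ∀ S, β S ⊆ S) (B : Finset α)
    (u : Finset α → ℝ) :
    ∑ R, link g β B R * u R
      = ∑ S ∈ Finset.univ.filter (fun S => β S = B), g S * u (S \ B) := by
  have h1 : ∑ R, link g β B R * u R
      = ∑ R ∈ Finset.univ.filter (fun R => Disjoint R B ∧ β (R ∪ B) = B), g (R ∪ B) * u R := by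
    rw [Finset.sum_filter]
    apply Finset.sum_congr rfl
    intro R _
    unfold link
    split_ifs <;> simp
  rw [h1]
  refine Finset.sum_bij' (fun R _ => R ∪ B) (fun S _ => S \ B) ?_ ?_ ?_ ?_ ?_
  · intro R hR
    simp only [Finset.mem_filter, Finset.mem_univ, true_and] at hR ⊢
    exact hR.2
  · intro S hS
    simp only [Finset.mem_filter, Finset.mem_univ, true_and] at hS ⊢
    have hBS : B ⊆ S := hS ▸ hβ S
    refine ⟨Finset.sdiff_disjoint, ?_⟩
    rw [Finset.sdiff_union_of_subset hBS]
    exact hS
  · intro R hR
    simp only [Finset.mem_filter, Finset.mem_univ, true_and] at hR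
    rw [Finset.union_sdiff_right]
    exact Finset.sdiff_eq_self_of_disjoint hR.1
  · intro S hS
    simp only [Finset.mem_filter, Finset.mem_univ, true_and] at hS
    have hBS : B ⊆ S := hS ▸ hβ S
    exact Finset.sdiff_union_of_subset hBS
  · intro R hR
    simp only [Finset.mem_filter, Finset.mem_univ, true_and] at hR
    have : (R ∪ B) \ B = R := by
      rw [Finset.union_sdiff_right]
      exact Finset.sdiff_eq_self_of_disjoint hR.1
    simp only [this]

lemma sum_link_one (g : Finset α → ℝ) (β : Finset α → Finset α) (hβ : ∀ S, β S ⊆ S)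
    (B : Finset α) :
    ∑ R, link g β B R = ∑ S ∈ Finset.univ.filter (fun S => β S = B), g S := by
  have := sum_link g β hβ B (fun _ => 1)
  simpa using this

lemma dg_link_of_disjoint (g : Finset α → ℝ) (β : Finset α → Finset α) (hβ : ∀ S, β S ⊆ S)
    {B B' : Finset α} (h : Disjoint B B') :
    dg (link g β B) B'
      = ∑ S ∈ Finset.univ.filter (fun S => β S = B ∧ B' ⊆ S), g S := by
  have h1 := sum_link g β hβ B (fun R => if B' ⊆ R then 1 else 0)
  have h2 : dg (link g β B) B' = ∑ R, link g β B R * (if B' ⊆ R then (1 : ℝ) else 0) := by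
    unfold dg
    rw [Finset.sum_filter]
    apply Finset.sum_congr rfl
    intro R _
    split_ifs <;> simp
  rw [h2, h1, ← Finset.filter_filter, Finset.sum_filter (fun S => B' ⊆ S)]
  apply Finset.sum_congr rfl
  intro S _
  have h3 : B' ⊆ S \ B ↔ B' ⊆ S := by
    rw [Finset.subset_sdiff]
    exact ⟨fun h => h.1, fun h' => ⟨h', h.symm⟩⟩
  simp only [h3]
  split_ifs <;> simp

lemma dg_link_of_not_disjoint (g : Finset α → ℝ) (β : Finset α → Finset α)
    {B B' : Finset α} (h : ¬ Disjoint B B') : dg (link g β B) B' = 0 := by
  unfold dg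
  apply Finset.sum_eq_zero
  intro R hR
  have hR' : B' ⊆ R := (Finset.mem_filter.1 hR).2
  unfold link
  rw [if_neg]
  rintro ⟨h1, -⟩
  exact h (Finset.disjoint_of_subset_left hR' h1).symm

lemma sum_link_powerset (g : Finset α → ℝ) (β : Finset α → Finset α) (hβ : ∀ S, β S ⊆ S)
    {B H : Finset α} (hBH : B ⊆ H) :
    ∑ R ∈ (H \ B).powerset, link g β B R
      = ∑ S ∈ H.powerset.filter (fun S => β S = B), g S := by
  have h1 := sum_link g β hβ B (fun R => if R ⊆ H \ B then 1 else 0)
  have h2 : ∑ R ∈ (H \ B).powerset, link g β B R
      = ∑ R, link g β B R * (if R ⊆ H \ B then (1 : ℝ) else 0) := by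
    have h4 : (H \ B).powerset = Finset.univ.filter (fun R => R ⊆ H \ B) := by
      ext R
      simp
    rw [h4, Finset.sum_filter]
    apply Finset.sum_congr rfl
    intro R _
    split_ifs <;> simp
  have h5 : H.powerset.filter (fun S => β S = B)
      = (Finset.univ.filter (fun S => β S = B)).filter (fun S => S ⊆ H) := by
    ext S
    simp only [Finset.mem_filter, Finset.mem_powerset, Finset.mem_univ, true_and]
    exact and_comm
  rw [h2, h1, h5, Finset.sum_filter (fun S => S ⊆ H)]
  apply Finset.sum_congr rfl
  intro S hS
  have hS' : β S = B := (Finset.mem_filter.1 hS).2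
  have h3 : S \ B ⊆ H \ B ↔ S ⊆ H := by
    constructor
    · intro h x hx
      by_cases hxB : x ∈ B
      · exact hBH hxB
      · exact (Finset.mem_sdiff.1 (h (Finset.mem_sdiff.2 ⟨hx, hxB⟩))).1
    · intro h
      exact Finset.sdiff_subset_sdiff h subset_rfl
  simp only [h3]
  split_ifs <;> simp

/-- Disjoint fibres. -/
lemma sum_fibres (β : Finset α → Finset α) (A : Finset (Finset α)) (g : Finset α → ℝ) :
    ∑ B ∈ A, ∑ S ∈ Finset.univ.filter (fun S => β S = B), g S
      = ∑ S ∈ Finset.univ.filter (fun S => β S ∈ A), g S := by
  rw [← Finset.sum_fiberwise_of_maps_to (s := Finset.univ.filter (fun S => β S ∈ A)) (t := A)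
    (g := β) (fun S hS => (Finset.mem_filter.1 hS).2)]
  apply Finset.sum_congr rfl
  intro B hB
  rw [Finset.filter_filter]
  apply Finset.sum_congr _ (fun _ _ => rfl)
  ext S
  simp only [Finset.mem_filter, Finset.mem_univ, true_and]
  constructor
  · intro h
    exact ⟨h ▸ hB, h⟩
  · intro h
    exact h.2

/-- The greedy partition. -/
lemma partition (g : Finset α → ℝ) (hg : ∀ S, 0 ≤ g S) (n : ℕ) {p : ℝ} (hp : 0 < p)
    (θ : ℕ → ℝ) (hθ : ∀ k, 0 < θ k) :
    ∀ (N : ℕ) (𝒮 : Finset (Finset α)), 𝒮.card ≤ N →
      ∃ β : Finset α → Finset α, (∀ S ∈ 𝒮, β S ⊆ S) ∧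
        (∀ B : Finset α, B.Nonempty → (∃ S ∈ 𝒮, β S = B) →
          θ B.card ≤ p ^ (n - B.card) * ∑ S ∈ 𝒮.filter (fun S => β S = B), g S) ∧
        (∀ B B' : Finset α, B'.Nonempty → Disjoint B B' →
          p ^ (n - (B ∪ B').card) * ∑ S ∈ 𝒮.filter (fun S => β S = B ∧ B' ⊆ S), g S
            < θ (B ∪ B').card) := by
  intro N
  induction N with
  | zero =>
    intro 𝒮 h𝒮
    have h𝒮e : 𝒮 = ∅ := Finset.card_eq_zero.1 (Nat.le_zero.1 h𝒮)
    subst h𝒮e
    refine ⟨fun _ => ∅, by simp, ?_, ?_⟩
    · rintro B - ⟨S, hS, -⟩
      exact absurd hS (Finset.notMem_empty S)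
    · intro B B' _ _
      simpa using hθ _
  | succ N ih =>
    intro 𝒮 h𝒮
    set good : Finset (Finset α) := Finset.univ.filter (fun B => B.Nonempty ∧
      θ B.card ≤ p ^ (n - B.card) * ∑ S ∈ 𝒮.filter (fun S => B ⊆ S), g S) with hgood
    by_cases hne : good.Nonempty
    · obtain ⟨B, hB, hBmax⟩ := Finset.exists_max_image good (fun B => B.card) hne
      have hB1 : B.Nonempty := ((Finset.mem_filter.1 hB).2).1
      have hB2 := ((Finset.mem_filter.1 hB).2).2
      set 𝒮1 := 𝒮.filter (fun S => ¬ B ⊆ S) with h𝒮1
      have hcard : 𝒮1.card ≤ N := by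
        have hlt : 𝒮1.card < 𝒮.card := by
          apply Finset.card_lt_card
          rw [Finset.ssubset_iff_subset_ne]
          refine ⟨Finset.filter_subset _ _, ?_⟩
          intro heq
          have hemp : 𝒮.filter (fun S => B ⊆ S) = ∅ := by
            rw [Finset.filter_eq_empty_iff]
            intro S hS
            rw [← heq] at hS
            exact (Finset.mem_filter.1 hS).2
          rw [hemp, Finset.sum_empty, mul_zero] at hB2
          exact absurd hB2 (not_le.2 (hθ _))
        omega
      obtain ⟨β', hβ1, hβ2, hβ3⟩ := ih 𝒮1 hcard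
      obtain ⟨β, hin, hout⟩ : ∃ β : Finset α → Finset α, (∀ S, B ⊆ S → β S = B) ∧
          (∀ S, ¬ B ⊆ S → β S = β' S) :=
        ⟨fun S => if B ⊆ S then B else β' S, fun S h => if_pos h, fun S h => if_neg h⟩
      refine ⟨β, ?_, ?_, ?_⟩
      · intro S hS
        by_cases h : B ⊆ S
        · rw [hin S h]
          exact h
        · rw [hout S h]
          exact hβ1 S (Finset.mem_filter.2 ⟨hS, h⟩)
      · intro C hC hCex
        by_cases hCB : C = B
        · subst hCB
          have hfib : 𝒮.filter (fun S => β S = C) = 𝒮.filter (fun S => C ⊆ S) := by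
            apply Finset.filter_congr
            intro S hS
            constructor
            · intro h2
              by_contra h
              rw [hout S h] at h2
              have h3 := hβ1 S (Finset.mem_filter.2 ⟨hS, h⟩)
              rw [h2] at h3
              exact h h3
            · exact hin S
          rw [hfib]
          exact hB2
        · obtain ⟨S0, hS0, hS0'⟩ := hCex
          have hnB : ¬ B ⊆ S0 := by
            intro h
            rw [hin S0 h] at hS0'
            exact hCB hS0'.symm
          rw [hout S0 hnB] at hS0'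
          have h4 := hβ2 C hC ⟨S0, Finset.mem_filter.2 ⟨hS0, hnB⟩, hS0'⟩
          have hfib : 𝒮.filter (fun S => β S = C) = 𝒮1.filter (fun S => β' S = C) := by
            rw [h𝒮1, Finset.filter_filter]
            apply Finset.filter_congr
            intro S hS
            constructor
            · intro h
              have hnS : ¬ B ⊆ S := by
                intro h'
                rw [hin S h'] at h
                exact hCB h.symm
              exact ⟨hnS, by rw [← hout S hnS]; exact h⟩
            · rintro ⟨h1, h2⟩
              rw [hout S h1]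
              exact h2
          rw [hfib]
          exact h4
      · intro C C' hC' hdis
        by_cases hCB : C = B
        · subst hCB
          have hcard2 : C.card < (C ∪ C').card := by
            rw [Finset.card_union_of_disjoint hdis]
            have := hC'.card_pos
            omega
          have hnot : C ∪ C' ∉ good := by
            intro hmem
            have := hBmax _ hmem
            omega
          have hlt : p ^ (n - (C ∪ C').card) * ∑ S ∈ 𝒮.filter (fun S => C ∪ C' ⊆ S), g S
              < θ (C ∪ C').card := by
            by_contra hcon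
            push Not at hcon
            apply hnot
            rw [hgood, Finset.mem_filter]
            exact ⟨Finset.mem_univ _, hB1.mono Finset.subset_union_left, hcon⟩
          refine lt_of_le_of_lt ?_ hlt
          apply mul_le_mul_of_nonneg_left _ (pow_nonneg hp.le _)
          apply Finset.sum_le_sum_of_subset_of_nonneg
          · intro S hS
            rw [Finset.mem_filter] at hS ⊢
            refine ⟨hS.1, Finset.union_subset ?_ hS.2.2⟩
            by_contra hCS
            have h6 := hS.2.1
            rw [hout S hCS] at h6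
            have h7 := hβ1 S (Finset.mem_filter.2 ⟨hS.1, hCS⟩)
            rw [h6] at h7
            exact hCS h7
          · intro S _ _
            exact hg S
        · refine lt_of_le_of_lt ?_ (hβ3 C C' hC' hdis)
          apply mul_le_mul_of_nonneg_left _ (pow_nonneg hp.le _)
          apply Finset.sum_le_sum_of_subset_of_nonneg
          · intro S hS
            rw [Finset.mem_filter] at hS ⊢
            have hnB : ¬ B ⊆ S := by
              intro h
              have h6 := hS.2.1
              rw [hin S h] at h6
              exact hCB h6.symm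
            refine ⟨Finset.mem_filter.2 ⟨hS.1, hnB⟩, ?_, hS.2.2⟩
            have h6 := hS.2.1
            rwa [hout S hnB] at h6
          · intro S _ _
            exact hg S
    · rw [Finset.not_nonempty_iff_eq_empty] at hne
      refine ⟨fun _ => ∅, fun S _ => Finset.empty_subset S, ?_, ?_⟩
      · rintro B hB ⟨S, -, h⟩
        exact absurd hB (by rw [← h]; exact Finset.not_nonempty_empty)
      · intro B B' hB' hdis
        by_cases hBe : B = ∅
        · subst hBe
          rw [Finset.empty_union]
          have hnot : B' ∉ good := by rw [hne]; exact Finset.notMem_empty _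
          have hlt : p ^ (n - B'.card) * ∑ S ∈ 𝒮.filter (fun S => B' ⊆ S), g S < θ B'.card := by
            by_contra hcon
            push Not at hcon
            apply hnot
            rw [hgood, Finset.mem_filter]
            exact ⟨Finset.mem_univ _, hB', hcon⟩
          simpa using hlt
        · have hemp : 𝒮.filter (fun S => (∅ : Finset α) = B ∧ B' ⊆ S) = ∅ := by
            rw [Finset.filter_eq_empty_iff]
            rintro S _ ⟨h, -⟩
            exact hBe h.symm
          simp only [hemp, Finset.sum_empty, mul_zero]
          exact hθ _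

end P034F
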