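import Vale.Agent.P034F.Partition
import Vale.Agent.P034F.Local

/-! Lemma B of `Vale/Agent/P034/PROOF.md`: the main recursion. -/

namespace P034F

open Finset

variable {α : Type*} [Fintype α] [DecidableEq α]

omit [Fintype α] in
lemma cost_union_le_add {q : ℝ} (hq : 0 ≤ q) (G G' : Finset (Finset α)) :
    cost q (G ∪ G') ≤ cost q G + cost q G' := by
  unfold cost
  have h := Finset.sum_union_inter (s₁ := G) (s₂ := G') (f := fun S => q ^ S.card)
  have h2 : 0 ≤ ∑ S ∈ G ∩ G', q ^ S.card := Finset.sum_nonneg fun _ _ => pow_nonneg hq _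
  linarith

omit [Fintype α] in
lemma cost_biUnion_le_sum {ι : Type*} [DecidableEq ι] {q : ℝ} (hq : 0 ≤ q) (s : Finset ι)
    (G : ι → Finset (Finset α)) : cost q (s.biUnion G) ≤ ∑ i ∈ s, cost q (G i) := by
  induction s using Finset.induction_on with
  | empty => simp [cost]
  | insert a s ha ih =>
    rw [Finset.biUnion_insert, Finset.sum_insert ha]
    exact (cost_union_le_add hq _ _).trans (by linarith)

omit [Fintype α] in
lemma cost_filter_le_self {q : ℝ} (hq : 0 ≤ q) (G : Finset (Finset α)) (P : Finset α → Prop)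
    [DecidablePred P] : cost q (G.filter P) ≤ cost q G := by
  unfold cost
  exact Finset.sum_le_sum_of_subset_of_nonneg (Finset.filter_subset _ _)
    (fun _ _ _ => pow_nonneg hq _)

omit [Fintype α] in
/-- The cost of adding a disjoint set `B` to all members. -/
lemma cost_shift_le {q : ℝ} (hq : 0 ≤ q) (G : Finset (Finset α)) (B : Finset α) :
    cost q ((G.filter (fun T => Disjoint T B)).image (fun T => B ∪ T)) ≤ q ^ B.card * cost q G := by
  have h1 : cost q ((G.filter (fun T => Disjoint T B)).image (fun T => B ∪ T))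
      ≤ ∑ T ∈ G.filter (fun T => Disjoint T B), q ^ (B ∪ T).card := by
    unfold cost
    exact Finset.sum_image_le_of_nonneg (fun _ _ => pow_nonneg hq _)
  refine h1.trans ?_
  have h2 : ∑ T ∈ G.filter (fun T => Disjoint T B), q ^ (B ∪ T).card
      = q ^ B.card * cost q (G.filter (fun T => Disjoint T B)) := by
    unfold cost
    rw [Finset.mul_sum]
    apply Finset.sum_congr rfl
    intro T hT
    rw [Finset.card_union_of_disjoint ((Finset.mem_filter.1 hT).2).symm, pow_add]
  rw [h2]
  exact mul_le_mul_of_nonneg_left (cost_filter_le_self hq _ _) (pow_nonneg hq _)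

lemma half_anti {a b : ℕ} (h : b ≤ a) : (1 / 2 : ℝ) ^ a ≤ (1 / 2 : ℝ) ^ b :=
  pow_le_pow_of_le_one (by norm_num) (by norm_num) h

/-- The hypotheses of Lemma B. -/
def Hyp (p : ℝ) (n P : ℕ) (g : Finset α → ℝ) : Prop :=
  (∀ S, 0 ≤ g S) ∧ (∀ S, g S ≠ 0 → S.card = n) ∧ p ^ n * ∑ S, g S ≤ 1 ∧
    ∀ B' : Finset α, B'.Nonempty → p ^ (n - B'.card) * dg g B' ≤ (1 / 2 : ℝ) ^ (5 * P)

/-- The conclusion of Lemma B. -/
def Concl (p q : ℝ) (n P : ℕ) (g : Finset α → ℝ) : Prop :=
  ∃ G : Finset (Finset α), cost q G ≤ (1 / 2 : ℝ) ^ (10 * P) ∧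
    ∀ H : Finset α, (∃ T ∈ G, T ⊆ H) ∨
      ∑ S ∈ H.powerset, g S ≤ 4 ^ n * (p ^ n * ∑ S, g S + (1 / 2 : ℝ) ^ P)

lemma fib_le_dg {g : Finset α → ℝ} (hg : ∀ S, 0 ≤ g S) {β : Finset α → Finset α}
    (hβ : ∀ S, β S ⊆ S) (B : Finset α) :
    ∑ S ∈ Finset.univ.filter (fun S => β S = B), g S ≤ dg g B := by
  unfold dg
  apply Finset.sum_le_sum_of_subset_of_nonneg
  · intro S hS
    rw [Finset.mem_filter] at hS ⊢
    exact ⟨hS.1, hS.2 ▸ hβ S⟩
  · intro S _ _
    exact hg S

/-- The local families. -/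
lemma local_step {p q : ℝ} (hq : 0 < q) (hqp : 512 * q ≤ p) (hp1 : p ≤ 1) (n P : ℕ)
    (hnP : n ≤ P) (hP : 10 ≤ P) (g : Finset α → ℝ) (hyp : Hyp p n P g)
    (β : Finset α → Finset α) (hβ : ∀ S, β S ⊆ S) (A : Finset (Finset α)) (k : ℕ) (hk : 1 ≤ k)
    (hkn : k ≤ n) (hA : ∀ B ∈ A, B.card = k)
    (hAw : ∀ B ∈ A, (1 / 2 : ℝ) ^ (2 * 5 ^ k * P) ≤
      p ^ (n - k) * ∑ S ∈ Finset.univ.filter (fun S => β S = B), g S) :
    ∃ G : Finset (Finset α), cost q G ≤ (1 / 2 : ℝ) ^ (12 * P + 1) ∧
      ∀ H : Finset α, (∃ T ∈ G, T ⊆ H) ∨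
        ∑ B ∈ A.filter (fun B => B ⊆ H),
          p ^ (n - k) * ∑ S ∈ Finset.univ.filter (fun S => β S = B), g S
          ≤ 2 * (p ^ n * ∑ B ∈ A, ∑ S ∈ Finset.univ.filter (fun S => β S = B), g S)
            + (1 / 2 : ℝ) ^ (2 * P) := by
  obtain ⟨hg, hgn, hw, hdeg⟩ := hyp
  have hp : 0 < p := by linarith
  set fib : Finset α → ℝ := fun B => ∑ S ∈ Finset.univ.filter (fun S => β S = B), g S with hfib
  have hfib0 : ∀ B, 0 ≤ fib B := fun B => Finset.sum_nonneg fun S _ => hg S
  set f : Finset α → ℝ := fun B => if B ∈ A then p ^ (n - k) * fib B else 0 with hf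
  have hfA : ∀ B, f B ≠ 0 → B ∈ A := by
    intro B hB
    by_contra h
    exact hB (by simp only [hf, if_neg h])
  have hf0 : ∀ B, 0 ≤ f B := by
    intro B
    simp only [hf]
    split_ifs
    · exact mul_nonneg (pow_nonneg hp.le _) (hfib0 B)
    · exact le_rfl
  have hsumA : ∀ A' : Finset (Finset α), ∑ B ∈ A', fib B
      = ∑ S ∈ Finset.univ.filter (fun S => β S ∈ A'), g S := fun A' => sum_fibres β A' g
  have hpk : p ^ k * p ^ (n - k) = p ^ n := by
    rw [← pow_add]
    congr 1
    omega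
  have hfsum : p ^ k * ∑ B, f B = p ^ n * ∑ B ∈ A, fib B := by
    have h1 : ∑ B, f B = ∑ B ∈ A, p ^ (n - k) * fib B := by
      simp only [hf, Finset.sum_ite_mem, Finset.univ_inter]
    rw [h1, ← Finset.mul_sum, ← mul_assoc, hpk]
  have hAle : ∑ B ∈ A, fib B ≤ ∑ S, g S := by
    rw [hsumA]
    exact Finset.sum_le_sum_of_subset_of_nonneg (Finset.subset_univ _) (fun S _ _ => hg S)
  have hphi0 : 0 ≤ p ^ n * ∑ B ∈ A, fib B :=
    mul_nonneg (pow_nonneg hp.le _) (Finset.sum_nonneg fun B _ => hfib0 B)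
  have hphi1 : p ^ n * ∑ B ∈ A, fib B ≤ 1 :=
    (mul_le_mul_of_nonneg_left hAle (pow_nonneg hp.le _)).trans hw
  have hd0 : (0 : ℝ) < (1 / 2 : ℝ) ^ (2 * P) := by positivity
  have hd1 : (1 / 2 : ℝ) ^ (2 * P) ≤ 1 := pow_le_one₀ (by norm_num) (by norm_num)
  set ε : ℝ := 2 * (p ^ n * ∑ B ∈ A, fib B) + (1 / 2 : ℝ) ^ (2 * P) with hε
  obtain ⟨G, hG, hGc⟩ := local_cover k P hk (hkn.trans hnP) hP p q hq hqp hp1 f hf0
    (fun B hB => hA B (hfA B hB))
    (by
      intro B hB
      have hBA := hfA B hB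
      simp only [hf, if_pos hBA]
      exact hAw B hBA)
    ε (by positivity) (by linarith)
    (by rw [hfsum]; linarith)
    (by
      intro B' hB'
      have hrhs : (1 / 2 : ℝ) ^ (5 * P) ≤ ε * (1 / 2 : ℝ) ^ (3 * P) := by
        have h1 : (1 / 2 : ℝ) ^ (5 * P) = (1 / 2 : ℝ) ^ (2 * P) * (1 / 2 : ℝ) ^ (3 * P) := by
          rw [← pow_add]; congr 1; ring
        rw [h1]
        exact mul_le_mul_of_nonneg_right (by linarith) (by positivity)
      by_cases hcard : B'.card ≤ k
      · have h1 : ∑ B ∈ Finset.univ.filter (fun B => B' ⊆ B), f B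
            = p ^ (n - k) * ∑ B ∈ A.filter (fun B => B' ⊆ B), fib B := by
          rw [Finset.mul_sum, Finset.sum_filter, Finset.sum_filter]
          rw [← Finset.univ_inter A, ← Finset.sum_ite_mem]
          apply Finset.sum_congr rfl
          intro B _
          simp only [hf]
          split_ifs <;> simp
        have h2 : p ^ (k - B'.card) * p ^ (n - k) = p ^ (n - B'.card) := by
          rw [← pow_add]
          congr 1
          omega
        rw [h1, ← mul_assoc, h2, hsumA]
        refine le_trans (le_trans ?_ (hdeg B' hB')) hrhs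
        apply mul_le_mul_of_nonneg_left _ (pow_nonneg hp.le _)
        unfold dg
        apply Finset.sum_le_sum_of_subset_of_nonneg
        · intro S hS
          rw [Finset.mem_filter] at hS ⊢
          exact ⟨hS.1, ((Finset.mem_filter.1 hS.2).2).trans (hβ S)⟩
        · intro S _ _
          exact hg S
      · have h1 : ∑ B ∈ Finset.univ.filter (fun B => B' ⊆ B), f B = 0 := by
          apply Finset.sum_eq_zero
          intro B hB
          by_contra h
          have h3 := hA B (hfA B h)
          have h4 := Finset.card_le_card (Finset.mem_filter.1 hB).2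
          omega
        rw [h1, mul_zero]
        positivity)
  refine ⟨G, hG, ?_⟩
  intro H
  by_cases hcase : ε ≤ ∑ B ∈ H.powerset, f B
  · exact Or.inl (hGc H hcase)
  · right
    push Not at hcase
    refine le_trans (le_of_eq ?_) hcase.le
    simp only [hf]
    rw [← Finset.sum_filter]
    apply Finset.sum_congr _ (fun _ _ => rfl)
    ext B
    simp only [Finset.mem_filter, Finset.mem_powerset]
    exact and_comm

/-- The hypotheses pass to the links. -/
lemma hyp_link {p : ℝ} (hp : 0 < p) (n P : ℕ) (g : Finset α → ℝ)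
    (hyp : Hyp p n P g) (β : Finset α → Finset α) (hβ : ∀ S, β S ⊆ S)
    (B : Finset α) (P' : ℕ) (hBn : B.card ≤ n)
    (hw1 : p ^ (n - B.card) * ∑ S ∈ Finset.univ.filter (fun S => β S = B), g S ≤ 1)
    (hβ3 : ∀ B' : Finset α, B'.Nonempty → Disjoint B B' →
          p ^ (n - (B ∪ B').card) * ∑ S ∈ Finset.univ.filter (fun S => β S = B ∧ B' ⊆ S), g S
            ≤ (1 / 2 : ℝ) ^ (5 * P')) :
    Hyp p (n - B.card) P' (link g β B) := by
  obtain ⟨hg, hgn, hw, hdeg⟩ := hyp
  refine ⟨link_nonneg hg β B, ?_, ?_, ?_⟩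
  · intro R hR
    unfold link at hR
    by_cases h : Disjoint R B ∧ β (R ∪ B) = B
    · rw [if_pos h] at hR
      have h1 := hgn _ hR
      rw [Finset.card_union_of_disjoint h.1] at h1
      omega
    · rw [if_neg h] at hR
      exact absurd rfl hR
  · rw [sum_link_one g β hβ B]
    exact hw1
  · intro B' hB'
    by_cases hdis : Disjoint B B'
    · rw [dg_link_of_disjoint g β hβ hdis]
      have h1 := hβ3 B' hB' hdis
      rw [Finset.card_union_of_disjoint hdis] at h1
      have h2 : n - B.card - B'.card = n - (B.card + B'.card) := by omega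
      rw [h2]
      exact h1
    · rw [dg_link_of_not_disjoint g β hdis, mul_zero]
      positivity

/-- The inductive step of Lemma B. -/
lemma rec_step {p q : ℝ} (hq : 0 < q) (hqp : 512 * q ≤ p) (hp1 : p ≤ 1) (n P : ℕ) (hn : 1 ≤ n)
    (hnP : n ≤ P) (hP : 10 ≤ P) (g : Finset α → ℝ) (hyp : Hyp p n P g) (j : ℕ)
    (hj : ∀ S, g S ≠ 0 → (1 / 2 : ℝ) ^ (5 * 2 ^ (j + 1) * P) < g S)
    (IHn : ∀ m < n, ∀ P', m ≤ P' → 10 ≤ P' → ∀ g' : Finset α → ℝ, Hyp p m P' g' →
      (∀ S, g' S ≠ 0 → (1 / 2 : ℝ) ^ (5 * 2 ^ j * P') < g' S) → Concl p q m P' g')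
    (IHj : ∀ g' : Finset α → ℝ, Hyp p n (2 * P) g' →
      (∀ S, g' S ≠ 0 → (1 / 2 : ℝ) ^ (5 * 2 ^ j * (2 * P)) < g' S) → Concl p q n (2 * P) g') :
    Concl p q n P g := by
  have hp : 0 < p := by linarith
  have hyp' := hyp
  obtain ⟨hg, hgn, hw, hdeg⟩ := hyp
  set θ : ℕ → ℝ := fun k => (1 / 2 : ℝ) ^ (2 * 5 ^ k * P) with hθ
  have hθ0 : ∀ k, 0 < θ k := fun k => by positivity
  obtain ⟨β, hβ1, hβ2, hβ3⟩ := partition g hg n hp θ hθ0 _ Finset.univ le_rfl
  have hβ : ∀ S, β S ⊆ S := fun S => hβ1 S (Finset.mem_univ S)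
  set fib : Finset α → ℝ := fun B => ∑ S ∈ Finset.univ.filter (fun S => β S = B), g S with hfib
  have hfib0 : ∀ B, 0 ≤ fib B := fun B => Finset.sum_nonneg fun S _ => hg S
  set w : Finset α → ℝ := fun B => p ^ (n - B.card) * fib B with hwdef
  set 𝓑 : Finset (Finset α) := Finset.univ.filter (fun B => B.Nonempty ∧ ∃ S, β S = B) with h𝓑
  have hBw : ∀ B ∈ 𝓑, θ B.card ≤ w B := by
    intro B hB
    obtain ⟨-, hB1, S, hS⟩ := Finset.mem_filter.1 hB
    exact hβ2 B hB1 ⟨S, Finset.mem_univ S, hS⟩
  have hBpos : ∀ B ∈ 𝓑, 1 ≤ B.card := by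
    intro B hB
    exact ((Finset.mem_filter.1 hB).2.1).card_pos
  have hBn : ∀ B ∈ 𝓑, B.card ≤ n := by
    intro B hB
    have h1 : 0 < w B := lt_of_lt_of_le (hθ0 _) (hBw B hB)
    have h2 : fib B ≠ 0 := by
      intro h
      simp only [hwdef, h, mul_zero, lt_self_iff_false] at h1
    obtain ⟨S, hS, hS'⟩ := Finset.exists_ne_zero_of_sum_ne_zero h2
    have h3 := hgn S hS'
    have h4 : B ⊆ S := (Finset.mem_filter.1 hS).2 ▸ hβ S
    rw [← h3]
    exact Finset.card_le_card h4
  have hBw1 : ∀ B ∈ 𝓑, w B ≤ 1 := by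
    intro B hB
    have h1 : w B ≤ p ^ (n - B.card) * dg g B :=
      mul_le_mul_of_nonneg_left (fib_le_dg hg hβ B) (pow_nonneg hp.le _)
    exact (h1.trans (hdeg B ((Finset.mem_filter.1 hB).2.1))).trans
      (pow_le_one₀ (by norm_num) (by norm_num))
  -- children
  have hchild : ∀ B ∈ 𝓑, Concl p q (n - B.card) (2 * 5 ^ B.card * P) (link g β B) := by
    intro B hB
    have h5 : 1 ≤ 5 ^ B.card := Nat.one_le_pow _ _ (by norm_num)
    have hP2 : P ≤ 2 * 5 ^ B.card * P := by nlinarith
    apply IHn (n - B.card) (by have := hBpos B hB; omega) _ (by omega) (by omega)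
    · apply hyp_link hp n P g hyp' β hβ B _ (hBn B hB) (hBw1 B hB)
      intro B' hB' hdis
      refine (hβ3 B B' hB' hdis).le.trans ?_
      simp only [hθ]
      apply half_anti
      rw [Finset.card_union_of_disjoint hdis, pow_add]
      have h6 : 5 ≤ 5 ^ B'.card := by
        calc 5 = 5 ^ 1 := (pow_one 5).symm
          _ ≤ 5 ^ B'.card := Nat.pow_le_pow_right (by norm_num) hB'.card_pos
      calc 5 * (2 * 5 ^ B.card * P) = 2 * (5 ^ B.card * 5) * P := by ring
        _ ≤ 2 * (5 ^ B.card * 5 ^ B'.card) * P := by gcongr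
    · intro R hR
      unfold link at hR ⊢
      by_cases h : Disjoint R B ∧ β (R ∪ B) = B
      · rw [if_pos h] at hR ⊢
        refine lt_of_le_of_lt (half_anti ?_) (hj _ hR)
        rw [pow_succ]
        calc 5 * (2 ^ j * 2) * P = 5 * 2 ^ j * (2 * 1 * P) := by ring
          _ ≤ 5 * 2 ^ j * (2 * 5 ^ B.card * P) := by gcongr
      · rw [if_neg h] at hR
        exact absurd rfl hR
  have hchild0 : Concl p q n (2 * P) (link g β ∅) := by
    apply IHj
    · have := hyp_link hp n P g hyp' β hβ ∅ (2 * P) (by simp)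
        (by
          rw [Finset.card_empty, Nat.sub_zero]
          refine le_trans (mul_le_mul_of_nonneg_left ?_ (pow_nonneg hp.le _)) hw
          exact Finset.sum_le_sum_of_subset_of_nonneg (Finset.subset_univ _) (fun S _ _ => hg S))
        (by
          intro B' hB' hdis
          refine (hβ3 ∅ B' hB' hdis).le.trans ?_
          simp only [hθ]
          apply half_anti
          rw [Finset.empty_union]
          have h6 : 5 ≤ 5 ^ B'.card := by
            calc 5 = 5 ^ 1 := (pow_one 5).symm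
              _ ≤ 5 ^ B'.card := Nat.pow_le_pow_right (by norm_num) hB'.card_pos
          calc 5 * (2 * P) = 2 * 5 * P := by ring
            _ ≤ 2 * 5 ^ B'.card * P := by gcongr)
      rwa [Finset.card_empty, Nat.sub_zero] at this
    · intro R hR
      unfold link at hR ⊢
      by_cases h : Disjoint R ∅ ∧ β (R ∪ ∅) = ∅
      · rw [if_pos h] at hR ⊢
        refine lt_of_le_of_lt (half_anti ?_) (hj _ hR)
        rw [pow_succ]
        exact le_of_eq (by ring)
      · rw [if_neg h] at hR
        exact absurd rfl hR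
  -- local families
  have hloc : ∀ k ∈ Finset.Icc 1 n, ∃ G : Finset (Finset α), cost q G ≤ (1 / 2 : ℝ) ^ (12 * P + 1) ∧
      ∀ H : Finset α, (∃ T ∈ G, T ⊆ H) ∨
        ∑ B ∈ (𝓑.filter (fun B => B.card = k)).filter (fun B => B ⊆ H), p ^ (n - k) * fib B
          ≤ 2 * (p ^ n * ∑ B ∈ 𝓑.filter (fun B => B.card = k), fib B) + (1 / 2 : ℝ) ^ (2 * P) := by
    intro k hk
    rw [Finset.mem_Icc] at hk
    apply local_step hq hqp hp1 n P hnP hP g hyp' β hβ _ k hk.1 hk.2
    · intro B hB
      exact (Finset.mem_filter.1 hB).2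
    · intro B hB
      have h1 := hBw B (Finset.mem_filter.1 hB).1
      simp only [hwdef, hθ, (Finset.mem_filter.1 hB).2] at h1
      exact h1
  choose! Gk hGkcost hGkcov using hloc
  choose! Gb hGbcost hGbcov using hchild
  obtain ⟨G0, hG0cost, hG0cov⟩ := hchild0
  refine ⟨G0 ∪ (Finset.Icc 1 n).biUnion Gk ∪ 𝓑.biUnion (fun B =>
    ((Gb B).filter (fun T => Disjoint T B)).image (fun T => B ∪ T)), ?_, ?_⟩
  · -- cost
    have hc1 : cost q ((Finset.Icc 1 n).biUnion Gk) ≤ (1 / 2 : ℝ) ^ (11 * P + 1) := by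
      refine (cost_biUnion_le_sum hq.le _ _).trans ?_
      calc ∑ k ∈ Finset.Icc 1 n, cost q (Gk k)
          ≤ ∑ k ∈ Finset.Icc 1 n, (1 / 2 : ℝ) ^ (12 * P + 1) :=
            Finset.sum_le_sum fun k hk => hGkcost k hk
        _ = n * (1 / 2 : ℝ) ^ (12 * P + 1) := by simp
        _ ≤ 2 ^ P * (1 / 2 : ℝ) ^ (12 * P + 1) := by
            apply mul_le_mul_of_nonneg_right _ (by positivity)
            have h1 : n ≤ 2 ^ P := hnP.trans Nat.lt_two_pow_self.le
            exact_mod_cast h1
        _ = (1 / 2 : ℝ) ^ (11 * P + 1) := by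
            rw [show 12 * P + 1 = P + (11 * P + 1) by ring, pow_add (1 / 2 : ℝ) P, ← mul_assoc,
              ← mul_pow]
            norm_num
    have hc2 : cost q (𝓑.biUnion (fun B =>
        ((Gb B).filter (fun T => Disjoint T B)).image (fun T => B ∪ T)))
          ≤ (1 / 2 : ℝ) ^ (18 * P) := by
      refine (cost_biUnion_le_sum hq.le _ _).trans ?_
      have h1 : ∀ B ∈ 𝓑, cost q (((Gb B).filter (fun T => Disjoint T B)).image (fun T => B ∪ T))
          ≤ (1 / 2 : ℝ) ^ (18 * P) * (p ^ n * fib B) := by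
        intro B hB
        refine (cost_shift_le hq.le _ _).trans ?_
        have h5 : 1 ≤ 5 ^ B.card := Nat.one_le_pow _ _ (by norm_num)
        have hqpB : q ^ B.card ≤ p ^ B.card := pow_le_pow_left₀ hq.le (by linarith) _
        have h2 : (1 / 2 : ℝ) ^ (10 * (2 * 5 ^ B.card * P))
            ≤ (1 / 2 : ℝ) ^ (18 * P) * w B := by
          have h3 : (1 / 2 : ℝ) ^ (10 * (2 * 5 ^ B.card * P))
              = (1 / 2 : ℝ) ^ (9 * (2 * 5 ^ B.card * P)) * (1 / 2 : ℝ) ^ (2 * 5 ^ B.card * P) := by
            rw [← pow_add]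
            congr 1
            ring
          rw [h3]
          apply mul_le_mul _ (hBw B hB) (by positivity) (by positivity)
          apply half_anti
          nlinarith
        calc q ^ B.card * cost q (Gb B)
            ≤ p ^ B.card * ((1 / 2 : ℝ) ^ (18 * P) * w B) :=
              mul_le_mul hqpB ((hGbcost B hB).trans h2) (cost_nonneg hq.le _)
                (pow_nonneg hp.le _)
          _ = (1 / 2 : ℝ) ^ (18 * P) * ((p ^ B.card * p ^ (n - B.card)) * fib B) := by
              simp only [hwdef]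
              ring
          _ = (1 / 2 : ℝ) ^ (18 * P) * (p ^ n * fib B) := by
              rw [← pow_add]
              congr 4
              have := hBn B hB
              omega
      refine (Finset.sum_le_sum h1).trans ?_
      rw [← Finset.mul_sum, ← Finset.mul_sum]
      have h2 : p ^ n * ∑ B ∈ 𝓑, fib B ≤ 1 := by
        refine le_trans (mul_le_mul_of_nonneg_left ?_ (pow_nonneg hp.le _)) hw
        have h3 := sum_fibres β 𝓑 g
        rw [h3]
        exact Finset.sum_le_sum_of_subset_of_nonneg (Finset.subset_univ _) (fun S _ _ => hg S)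
      calc (1 / 2 : ℝ) ^ (18 * P) * (p ^ n * ∑ B ∈ 𝓑, fib B)
          ≤ (1 / 2 : ℝ) ^ (18 * P) * 1 := mul_le_mul_of_nonneg_left h2 (by positivity)
        _ = (1 / 2 : ℝ) ^ (18 * P) := mul_one _
    have hc3 : cost q G0 ≤ (1 / 2 : ℝ) ^ (20 * P) := by
      refine hG0cost.trans (half_anti ?_)
      omega
    refine (cost_union_le_add hq.le _ _).trans ?_
    have h4 := cost_union_le_add hq.le G0 ((Finset.Icc 1 n).biUnion Gk)
    have h5 : (1 / 2 : ℝ) ^ (20 * P) ≤ (1 / 2 : ℝ) ^ (10 * P) * (1 / 4) := by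
      rw [show (1 / 4 : ℝ) = (1 / 2 : ℝ) ^ 2 by norm_num, ← pow_add]
      exact half_anti (by omega)
    have h6 : (1 / 2 : ℝ) ^ (11 * P + 1) ≤ (1 / 2 : ℝ) ^ (10 * P) * (1 / 4) := by
      rw [show (1 / 4 : ℝ) = (1 / 2 : ℝ) ^ 2 by norm_num, ← pow_add]
      exact half_anti (by omega)
    have h7 : (1 / 2 : ℝ) ^ (18 * P) ≤ (1 / 2 : ℝ) ^ (10 * P) * (1 / 4) := by
      rw [show (1 / 4 : ℝ) = (1 / 2 : ℝ) ^ 2 by norm_num, ← pow_add]
      exact half_anti (by omega)
    have h8 : (0 : ℝ) < (1 / 2 : ℝ) ^ (10 * P) := by positivity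
    linarith
  · -- values
    intro H
    by_cases hcov : ∃ T ∈ G0 ∪ (Finset.Icc 1 n).biUnion Gk ∪ 𝓑.biUnion (fun B =>
        ((Gb B).filter (fun T => Disjoint T B)).image (fun T => B ∪ T)), T ⊆ H
    · exact Or.inl hcov
    · right
      push Not at hcov
      -- the part without label
      have hv0 : ∑ S ∈ H.powerset.filter (fun S => β S = ∅), g S
          ≤ 4 ^ n * (p ^ n * fib ∅ + (1 / 2 : ℝ) ^ (2 * P)) := by
        rcases hG0cov H with ⟨T, hT, hTH⟩ | h
        · exact absurd hTH (hcov T (by simp [hT]))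
        · have h1 := sum_link_powerset g β hβ (Finset.empty_subset H)
          rw [Finset.sdiff_empty] at h1
          rw [h1, sum_link_one g β hβ] at h
          exact h
      -- the part with label `B`
      have hvB : ∀ B ∈ 𝓑, B ⊆ H → ∑ S ∈ H.powerset.filter (fun S => β S = B), g S
          ≤ 4 ^ (n - B.card) * (2 * w B) := by
        intro B hB hBH
        rcases hGbcov B hB (H \ B) with ⟨T, hT, hTH⟩ | h
        · exfalso
          have hTB : Disjoint T B := Finset.disjoint_of_subset_left hTH Finset.sdiff_disjoint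
          refine hcov (B ∪ T) ?_ (Finset.union_subset hBH (hTH.trans Finset.sdiff_subset))
          apply Finset.mem_union_right
          rw [Finset.mem_biUnion]
          exact ⟨B, hB, Finset.mem_image.2 ⟨T, Finset.mem_filter.2 ⟨hT, hTB⟩, rfl⟩⟩
        · rw [sum_link_powerset g β hβ hBH, sum_link_one g β hβ] at h
          refine h.trans ?_
          apply mul_le_mul_of_nonneg_left _ (by positivity)
          have h1 := hBw B hB
          simp only [hθ] at h1
          simp only [hwdef] at h1 ⊢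
          linarith
      -- local bound
      have hvk : ∀ k ∈ Finset.Icc 1 n,
          ∑ B ∈ (𝓑.filter (fun B => B.card = k)).filter (fun B => B ⊆ H), p ^ (n - k) * fib B
          ≤ 2 * (p ^ n * ∑ B ∈ 𝓑.filter (fun B => B.card = k), fib B) + (1 / 2 : ℝ) ^ (2 * P) := by
        intro k hk
        rcases hGkcov k hk H with ⟨T, hT, hTH⟩ | h
        · exfalso
          refine hcov T ?_ hTH
          apply Finset.mem_union_left
          apply Finset.mem_union_right
          rw [Finset.mem_biUnion]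
          exact ⟨k, hk, hT⟩
        · exact h
      have hsplit : ∑ S ∈ H.powerset, g S = ∑ S ∈ H.powerset.filter (fun S => β S = ∅), g S
          + ∑ B ∈ 𝓑.filter (fun B => B ⊆ H), ∑ S ∈ H.powerset.filter (fun S => β S = B), g S := by
        rw [← Finset.sum_filter_add_sum_filter_not H.powerset (fun S => β S = ∅) g]
        congr 1
        rw [← Finset.sum_fiberwise_of_maps_to (s := H.powerset.filter (fun S => ¬ β S = ∅))
          (t := 𝓑.filter (fun B => B ⊆ H)) (g := β)]
        · apply Finset.sum_congr rfl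
          intro B hB
          rw [Finset.filter_filter]
          apply Finset.sum_congr _ (fun _ _ => rfl)
          apply Finset.filter_congr
          intro S hS
          constructor
          · intro h
            exact h.2
          · intro h
            refine ⟨?_, h⟩
            rw [h]
            exact ((Finset.mem_filter.1 (Finset.mem_filter.1 hB).1).2.1).ne_empty
        · intro S hS
          rw [Finset.mem_filter, Finset.mem_powerset] at hS
          rw [Finset.mem_filter, h𝓑, Finset.mem_filter]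
          exact ⟨⟨Finset.mem_univ _, Finset.nonempty_iff_ne_empty.2 hS.2, S, rfl⟩,
            (hβ S).trans hS.1⟩
      have hmaps : ∀ B ∈ 𝓑, B.card ∈ Finset.Icc 1 n := by
        intro B hB
        rw [Finset.mem_Icc]
        exact ⟨hBpos B hB, hBn B hB⟩
      set φ : ℕ → ℝ := fun k => p ^ n * ∑ B ∈ 𝓑.filter (fun B => B.card = k), fib B with hφ
      have hφ0 : ∀ k, 0 ≤ φ k := fun k =>
        mul_nonneg (pow_nonneg hp.le _) (Finset.sum_nonneg fun B _ => hfib0 B)
      have hφsum : ∑ k ∈ Finset.Icc 1 n, φ k = p ^ n * ∑ B ∈ 𝓑, fib B := by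
        simp only [hφ]
        rw [← Finset.mul_sum]
        congr 1
        exact Finset.sum_fiberwise_of_maps_to hmaps _
      have hB1 : ∑ B ∈ 𝓑.filter (fun B => B ⊆ H), ∑ S ∈ H.powerset.filter (fun S => β S = B), g S
          ≤ ∑ k ∈ Finset.Icc 1 n, 4 ^ n * (φ k + (1 / 2 : ℝ) ^ (2 * P) * (1 / 2) ^ k) := by
        calc ∑ B ∈ 𝓑.filter (fun B => B ⊆ H), ∑ S ∈ H.powerset.filter (fun S => β S = B), g S
            ≤ ∑ B ∈ 𝓑.filter (fun B => B ⊆ H), 4 ^ (n - B.card) * (2 * w B) :=
              Finset.sum_le_sum fun B hB =>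
                hvB B (Finset.mem_filter.1 hB).1 (Finset.mem_filter.1 hB).2
          _ = ∑ k ∈ Finset.Icc 1 n, ∑ B ∈ (𝓑.filter (fun B => B ⊆ H)).filter
                (fun B => B.card = k), 4 ^ (n - B.card) * (2 * w B) := by
              rw [Finset.sum_fiberwise_of_maps_to]
              intro B hB
              exact hmaps B (Finset.mem_filter.1 hB).1
          _ = ∑ k ∈ Finset.Icc 1 n, 4 ^ (n - k) * (2 *
                ∑ B ∈ (𝓑.filter (fun B => B.card = k)).filter (fun B => B ⊆ H),
                  p ^ (n - k) * fib B) := by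
              apply Finset.sum_congr rfl
              intro k _
              rw [Finset.mul_sum, Finset.mul_sum]
              apply Finset.sum_congr
              · ext B
                simp only [Finset.mem_filter]
                tauto
              · intro B hB
                have hBk : B.card = k := (Finset.mem_filter.1 (Finset.mem_filter.1 hB).1).2
                simp only [hwdef, hBk]
          _ ≤ ∑ k ∈ Finset.Icc 1 n, 4 ^ n * (φ k + (1 / 2 : ℝ) ^ (2 * P) * (1 / 2) ^ k) := by
              apply Finset.sum_le_sum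
              intro k hk
              have hk' := Finset.mem_Icc.1 hk
              have h1 := hvk k hk
              have h2 : (4 : ℝ) ^ n = 4 ^ (n - k) * 4 ^ k := by
                rw [← pow_add]
                congr 1
                omega
              have h3 : (4 : ℝ) ^ k * (1 / 2) ^ k = 2 ^ k := by
                rw [← mul_pow]
                norm_num
              have h4 : (4 : ℝ) ≤ 4 ^ k := by
                calc (4 : ℝ) = 4 ^ 1 := (pow_one 4).symm
                  _ ≤ 4 ^ k := pow_le_pow_right₀ (by norm_num) hk'.1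
              have h5 : (2 : ℝ) ≤ 2 ^ k := by
                calc (2 : ℝ) = 2 ^ 1 := (pow_one 2).symm
                  _ ≤ 2 ^ k := pow_le_pow_right₀ (by norm_num) hk'.1
              have h6 : (0 : ℝ) < (1 / 2 : ℝ) ^ (2 * P) := by positivity
              rw [h2, mul_assoc]
              apply mul_le_mul_of_nonneg_left _ (by positivity)
              calc 2 * ∑ B ∈ (𝓑.filter (fun B => B.card = k)).filter (fun B => B ⊆ H),
                  p ^ (n - k) * fib B ≤ 2 * (2 * φ k + (1 / 2 : ℝ) ^ (2 * P)) := by linarith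
                _ ≤ 4 ^ k * φ k + 2 ^ k * (1 / 2 : ℝ) ^ (2 * P) := by
                    nlinarith [mul_le_mul_of_nonneg_right h4 (hφ0 k),
                      mul_le_mul_of_nonneg_right h5 h6.le]
                _ = 4 ^ k * (φ k + (1 / 2 : ℝ) ^ (2 * P) * (1 / 2) ^ k) := by
                    rw [← h3]
                    ring
      have hgeom : ∑ k ∈ Finset.Icc 1 n, (1 / 2 : ℝ) ^ k ≤ 1 := by
        have h1 : ∀ m : ℕ, ∑ k ∈ Finset.Icc 1 m, (1 / 2 : ℝ) ^ k = 1 - (1 / 2) ^ m := by
          intro m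
          induction m with
          | zero => simp
          | succ m ih =>
            rw [Finset.sum_Icc_succ_top (by omega), ih, pow_succ]
            ring
        rw [h1]
        have : (0 : ℝ) < (1 / 2) ^ n := by positivity
        linarith
      have hB2 : ∑ k ∈ Finset.Icc 1 n, 4 ^ n * (φ k + (1 / 2 : ℝ) ^ (2 * P) * (1 / 2) ^ k)
          ≤ 4 ^ n * (p ^ n * ∑ B ∈ 𝓑, fib B + (1 / 2 : ℝ) ^ (2 * P)) := by
        rw [← Finset.mul_sum, Finset.sum_add_distrib, hφsum, ← Finset.mul_sum]
        apply mul_le_mul_of_nonneg_left _ (by positivity)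
        have h6 : (0 : ℝ) < (1 / 2 : ℝ) ^ (2 * P) := by positivity
        nlinarith
      have htot : fib ∅ + ∑ B ∈ 𝓑, fib B = ∑ S, g S := by
        have h1 : ∑ B ∈ 𝓑, fib B = ∑ S ∈ Finset.univ.filter (fun S => ¬ β S = ∅), g S := by
          have h3 := sum_fibres β 𝓑 g
          rw [h3]
          apply Finset.sum_congr _ (fun _ _ => rfl)
          apply Finset.filter_congr
          intro S _
          rw [h𝓑, Finset.mem_filter]
          constructor
          · intro h
            exact h.2.1.ne_empty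
          · intro h
            exact ⟨Finset.mem_univ _, Finset.nonempty_iff_ne_empty.2 h, S, rfl⟩
        rw [h1]
        exact Finset.sum_filter_add_sum_filter_not Finset.univ (fun S => β S = ∅) g
      have hpow : (1 / 2 : ℝ) ^ (2 * P) + (1 / 2 : ℝ) ^ (2 * P) ≤ (1 / 2 : ℝ) ^ P := by
        have h1 : (1 / 2 : ℝ) ^ (2 * P) ≤ (1 / 2 : ℝ) ^ (P + 1) := half_anti (by omega)
        rw [pow_succ] at h1
        linarith
      calc ∑ S ∈ H.powerset, g S
          ≤ 4 ^ n * (p ^ n * fib ∅ + (1 / 2 : ℝ) ^ (2 * P))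
            + 4 ^ n * (p ^ n * ∑ B ∈ 𝓑, fib B + (1 / 2 : ℝ) ^ (2 * P)) := by
              rw [hsplit]
              exact add_le_add hv0 (hB1.trans hB2)
        _ = 4 ^ n * (p ^ n * (fib ∅ + ∑ B ∈ 𝓑, fib B)
            + ((1 / 2 : ℝ) ^ (2 * P) + (1 / 2 : ℝ) ^ (2 * P))) := by ring
        _ ≤ 4 ^ n * (p ^ n * ∑ S, g S + (1 / 2 : ℝ) ^ P) := by
              rw [htot]
              apply mul_le_mul_of_nonneg_left _ (by positivity)
              linarith

/-- Lemma B. -/
theorem main_rec {p q : ℝ} (hq : 0 < q) (hqp : 512 * q ≤ p) (hp1 : p ≤ 1) :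
    ∀ (n j P : ℕ), n ≤ P → 10 ≤ P → ∀ g : Finset α → ℝ, Hyp p n P g →
      (∀ S, g S ≠ 0 → (1 / 2 : ℝ) ^ (5 * 2 ^ j * P) < g S) → Concl p q n P g := by
  intro n
  induction n using Nat.strong_induction_on with
  | _ n ihn =>
    rcases Nat.eq_zero_or_pos n with hn0 | hn
    · -- uniformity zero
      subst hn0
      intro j P _ _ g hyp _
      obtain ⟨hg, hgn, hw, hdeg⟩ := hyp
      refine ⟨∅, by simp [cost], ?_⟩
      intro H
      right
      have h1 : ∑ S ∈ H.powerset, g S ≤ ∑ S, g S :=
        Finset.sum_le_sum_of_subset_of_nonneg (Finset.subset_univ _) (fun S _ _ => hg S)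
      have h2 : (0 : ℝ) < (1 / 2 : ℝ) ^ P := by positivity
      rw [pow_zero, pow_zero, one_mul, one_mul]
      linarith
    · intro j
      induction j with
      | zero =>
        intro P _ _ g hyp hj
        obtain ⟨hg, hgn, hw, hdeg⟩ := hyp
        have hzero : ∀ S, g S = 0 := by
          intro S
          by_contra hS
          have h1 := hj S hS
          have hSn := hgn S hS
          have hSne : S.Nonempty := by
            rw [← Finset.card_pos, hSn]
            exact hn
          have h2 := hdeg S hSne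
          rw [hSn, Nat.sub_self, pow_zero, one_mul] at h2
          have h3 : g S ≤ dg g S := by
            unfold dg
            apply Finset.single_le_sum (f := g) (fun R _ => hg R)
            rw [Finset.mem_filter]
            exact ⟨Finset.mem_univ _, subset_rfl⟩
          rw [pow_zero, mul_one] at h1
          linarith
        refine ⟨∅, by simp [cost], ?_⟩
        intro H
        right
        simp only [hzero, Finset.sum_const_zero, mul_zero, zero_add]
        positivity
      | succ j ihj =>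
        intro P hnP hP g hyp hj
        apply rec_step hq hqp hp1 n P hn hnP hP g hyp j hj
        · intro m hm P' hmP' hP' g' hyp' hj'
          exact ihn m hm j P' hmP' hP' g' hyp' hj'
        · intro g' hyp' hj'
          exact ihj (2 * P) (by omega) (by omega) g' hyp' hj'

/-- Lemma B without the auxiliary parameter. -/
theorem main_rec' {p q : ℝ} (hq : 0 < q) (hqp : 512 * q ≤ p) (hp1 : p ≤ 1) (n P : ℕ)
    (hnP : n ≤ P) (hP : 10 ≤ P) (g : Finset α → ℝ) (hyp : Hyp p n P g) : Concl p q n P g := by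
  have h1 : ∀ S, ∃ j : ℕ, g S ≠ 0 → (1 / 2 : ℝ) ^ j < g S := by
    intro S
    by_cases h : g S = 0
    · exact ⟨0, fun h' => absurd h h'⟩
    · have h2 : 0 < g S := lt_of_le_of_ne (hyp.1 S) (Ne.symm h)
      obtain ⟨j, hj⟩ := exists_pow_lt_of_lt_one h2 (by norm_num : (1 / 2 : ℝ) < 1)
      exact ⟨j, fun _ => hj⟩
  choose js hjs using h1
  set j := ∑ S, js S with hj
  apply main_rec hq hqp hp1 n j P hnP hP g hyp
  intro S hS
  refine lt_of_le_of_lt (half_anti ?_) (hjs S hS)
  have h2 : js S ≤ j := Finset.single_le_sum (f := js) (fun _ _ => Nat.zero_le _)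
    (Finset.mem_univ S)
  have h3 : j ≤ 2 ^ j := Nat.lt_two_pow_self.le
  calc js S ≤ 1 * 2 ^ j * 1 := by omega
    _ ≤ 5 * 2 ^ j * P := by gcongr <;> omega

end P034F
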