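import Vale.Agent.P034F.Assemble

/-! Existence of the maxima and comparison, from `small_of_fracSmall`. -/

namespace P034F

/-- For every finite nonempty `X` and every nonempty proper increasing family `F` on `X`, the
maxima `q` and `qf` defining the integral and the fractional expectation threshold of `F` exist,
and `0 < q ≤ qf ≤ 2 ^ 65 * q`. -/
theorem thresholds {X : Type*} [Fintype X] [Nonempty X] (F : Set (Finset X))
    (_hne : F.Nonempty) (hproper : ∅ ∉ F) (_hup : IsUpperSet F) :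
    ∃ q qf : ℝ,
      IsGreatest {p : ℝ | p ∈ Set.Icc 0 1 ∧ ∃ G : Finset (Finset X),
        (∀ H ∈ F, ∃ S ∈ G, S ⊆ H) ∧ ∑ S ∈ G, p ^ S.card ≤ 1 / 2} q ∧
      IsGreatest {p : ℝ | p ∈ Set.Icc 0 1 ∧ ∃ g : Finset X → ℝ, (∀ S, g S ∈ Set.Icc 0 1) ∧
        (∀ H ∈ F, 1 ≤ ∑ S ∈ H.powerset, g S) ∧ ∑ S, g S * p ^ S.card ≤ 1 / 2} qf ∧
      0 < q ∧ q ≤ qf ∧ qf ≤ 2 ^ 65 * q := by
  classical
  -- the first set is compact and contains a positive number
  set A : Set ℝ := {p : ℝ | p ∈ Set.Icc 0 1 ∧ ∃ G : Finset (Finset X),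
        (∀ H ∈ F, ∃ S ∈ G, S ⊆ H) ∧ ∑ S ∈ G, p ^ S.card ≤ 1 / 2} with hA
  set B : Set ℝ := {p : ℝ | p ∈ Set.Icc 0 1 ∧ ∃ g : Finset X → ℝ, (∀ S, g S ∈ Set.Icc 0 1) ∧
        (∀ H ∈ F, 1 ≤ ∑ S ∈ H.powerset, g S) ∧ ∑ S, g S * p ^ S.card ≤ 1 / 2} with hB
  set G0 : Finset (Finset X) := Finset.univ.filter fun S => S.Nonempty with hG0
  have hG0c : ∀ H ∈ F, ∃ S ∈ G0, S ⊆ H := by
    intro H hH
    refine ⟨H, Finset.mem_filter.2 ⟨Finset.mem_univ _, ?_⟩, subset_rfl⟩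
    rw [Finset.nonempty_iff_ne_empty]
    rintro rfl
    exact hproper hH
  set N : ℕ := Fintype.card (Finset X) with hN
  have hNpos : 0 < N := Fintype.card_pos
  set p1 : ℝ := 1 / (2 * N) with hp1
  have hNr : (1 : ℝ) ≤ N := by exact_mod_cast hNpos
  have hp1pos : 0 < p1 := by positivity
  have hp1le : p1 ≤ 1 := by
    rw [hp1, div_le_one (by positivity)]
    linarith
  have hp1A : p1 ∈ A := by
    refine ⟨⟨hp1pos.le, hp1le⟩, G0, hG0c, ?_⟩
    calc ∑ S ∈ G0, p1 ^ S.card ≤ ∑ S ∈ G0, p1 := by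
          apply Finset.sum_le_sum
          intro S hS
          have h1 : 1 ≤ S.card := (Finset.mem_filter.1 hS).2.card_pos
          calc p1 ^ S.card ≤ p1 ^ 1 := pow_le_pow_of_le_one hp1pos.le hp1le h1
            _ = p1 := pow_one _
      _ = G0.card * p1 := by rw [Finset.sum_const, nsmul_eq_mul]
      _ ≤ N * p1 := by
          apply mul_le_mul_of_nonneg_right _ hp1pos.le
          exact_mod_cast Finset.card_le_univ G0
      _ = 1 / 2 := by
          rw [hp1]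
          field_simp
  have hAc : IsCompact A := by
    have hAe : A = ⋃ G ∈ (Finset.univ : Finset (Finset (Finset X))).filter
        (fun G => ∀ H ∈ F, ∃ S ∈ G, S ⊆ H),
        (Set.Icc (0 : ℝ) 1 ∩ {p : ℝ | ∑ S ∈ G, p ^ S.card ≤ 1 / 2}) := by
      ext p
      simp only [hA, Set.mem_ofPred_eq, Set.mem_iUnion, Finset.mem_filter, Finset.mem_univ,
        true_and, Set.mem_inter_iff, exists_prop]
      constructor
      · rintro ⟨h1, G, h2, h3⟩
        exact ⟨G, h2, h1, h3⟩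
      · rintro ⟨G, h2, h1, h3⟩
        exact ⟨h1, G, h2, h3⟩
    rw [hAe]
    apply Finset.isCompact_biUnion
    intro G _
    apply isCompact_Icc.inter_right
    exact isClosed_le (by fun_prop) continuous_const
  have hBc : IsCompact B := by
    have hK : IsCompact ((Set.Icc (0 : ℝ) 1 ×ˢ Set.pi Set.univ fun _ : Finset X =>
        Set.Icc (0 : ℝ) 1) ∩ {x : ℝ × (Finset X → ℝ) |
          (∀ H ∈ F, 1 ≤ ∑ S ∈ H.powerset, x.2 S) ∧ ∑ S, x.2 S * x.1 ^ S.card ≤ 1 / 2}) := by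
      apply IsCompact.inter_right
      · exact isCompact_Icc.prod (isCompact_univ_pi fun _ => isCompact_Icc)
      · have h1 : IsClosed {x : ℝ × (Finset X → ℝ) | ∀ H ∈ F, 1 ≤ ∑ S ∈ H.powerset, x.2 S} := by
          have : {x : ℝ × (Finset X → ℝ) | ∀ H ∈ F, 1 ≤ ∑ S ∈ H.powerset, x.2 S} =
              ⋂ H ∈ F, {x : ℝ × (Finset X → ℝ) | 1 ≤ ∑ S ∈ H.powerset, x.2 S} := by
            ext x
            simp
          rw [this]
          exact isClosed_biInter fun H _ => isClosed_le continuous_const (by fun_prop)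
        have h2 : IsClosed {x : ℝ × (Finset X → ℝ) | ∑ S, x.2 S * x.1 ^ S.card ≤ 1 / 2} :=
          isClosed_le (by fun_prop) continuous_const
        exact h1.inter h2
    have hBe : B = Prod.fst '' ((Set.Icc (0 : ℝ) 1 ×ˢ Set.pi Set.univ fun _ : Finset X =>
        Set.Icc (0 : ℝ) 1) ∩ {x : ℝ × (Finset X → ℝ) |
          (∀ H ∈ F, 1 ≤ ∑ S ∈ H.powerset, x.2 S) ∧ ∑ S, x.2 S * x.1 ^ S.card ≤ 1 / 2}) := by
      ext p
      constructor
      · rintro ⟨h1, g, h2, h3, h4⟩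
        exact ⟨(p, g), ⟨⟨h1, fun S _ => h2 S⟩, h3, h4⟩, rfl⟩
      · rintro ⟨⟨p', g⟩, ⟨⟨h1, h2⟩, h3, h4⟩, rfl⟩
        exact ⟨h1, g, fun S => h2 S (Set.mem_univ _), h3, h4⟩
    rw [hBe]
    exact hK.image continuous_fst
  have hAB : A ⊆ B := by
    rintro p ⟨h1, G, h2, h3⟩
    refine ⟨h1, fun S => if S ∈ G then 1 else 0, ?_, ?_, ?_⟩
    · intro S
      show (if S ∈ G then (1 : ℝ) else 0) ∈ Set.Icc (0 : ℝ) 1
      split_ifs <;> simp
    · intro H hH
      obtain ⟨S, hS, hSH⟩ := h2 H hH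
      have h4 : (if S ∈ G then (1 : ℝ) else 0) ≤
          ∑ T ∈ H.powerset, (if T ∈ G then (1 : ℝ) else 0) :=
        Finset.single_le_sum (f := fun T => if T ∈ G then (1 : ℝ) else 0)
          (fun T _ => by split_ifs <;> norm_num) (Finset.mem_powerset.2 hSH)
      rw [if_pos hS] at h4
      exact h4
    · refine le_trans (le_of_eq ?_) h3
      simp only [ite_mul, one_mul, zero_mul]
      rw [← Finset.sum_filter]
      congr 1
      ext S
      simp
  obtain ⟨q, hq⟩ := hAc.exists_isGreatest ⟨p1, hp1A⟩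
  obtain ⟨qf, hqf⟩ := hBc.exists_isGreatest ⟨p1, hAB hp1A⟩
  refine ⟨q, qf, hq, hqf, hp1pos.trans_le (hq.2 hp1A), hqf.2 (hAB hq.1), ?_⟩
  have hqfpos : 0 < qf := hp1pos.trans_le (hqf.2 (hAB hp1A))
  obtain ⟨h1, g, h2, h3, h4⟩ := hqf.1
  obtain ⟨G, h5, h6⟩ := P034F.small_of_fracSmall (F := F) hqfpos h1.2 ⟨g, h2, h3, h4⟩
  have h7 : qf / 2 ^ 65 ∈ A := by
    refine ⟨⟨by positivity, ?_⟩, G, h5, h6⟩
    rw [div_le_one (by positivity)]
    exact h1.2.trans (by norm_num)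
  have h8 := hq.2 h7
  rw [div_le_iff₀ (by positivity)] at h8
  linarith

end P034F
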